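import Crest.Agent.R92.Tier

/-!
# Row 92: forward solutions and convex barriers
-/

set_option autoImplicit false

namespace Crest.Agent.R92

open Set Crest.AnalysisR.MassAction
open scoped Topology NNReal

theorem noRise {g : ℝ → ℝ} {a b m : ℝ} (hg : ContinuousOn g (Icc a b)) (ha : g a ≤ m)
    (h : ∀ t ∈ Ioc a b, m < g t → ∃ s ∈ Ico a t, g t < g s) : ∀ t ∈ Icc a b, g t ≤ m := by
  intro t ht
  obtain ⟨u, hu, hmax⟩ := isCompact_Icc.exists_isMaxOn ⟨t, ht⟩ hg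
  by_contra hcon
  have h1 : m < g u := lt_of_lt_of_le (not_le.1 hcon) (hmax ht)
  have h2 : a < u := lt_of_le_of_ne hu.1 (fun e => by rw [← e] at h1; linarith)
  obtain ⟨s, hs, hlt⟩ := h u ⟨h2, hu.2⟩ h1
  exact absurd (hmax ⟨hs.1, hs.2.le.trans hu.2⟩) (not_le.2 hlt)

theorem exists_left_gt {h : ℝ → ℝ} {h' a t : ℝ} (hd : HasDerivAt h h' t) (hneg : h' < 0)
    (hat : a < t) : ∃ s ∈ Ico a t, h t < h s := by
  have h1 := (hasDerivAt_iff_tendsto_slope_left_right.1 hd).1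
  have h2 : ∀ᶠ s in 𝓝[<] t, slope h t s < 0 := h1.eventually (gt_mem_nhds hneg)
  obtain ⟨s, hs1, hs2⟩ := (h2.and (Ico_mem_nhdsLT hat)).exists
  refine ⟨s, hs2, ?_⟩
  rw [slope_def_field] at hs1
  have h3 : s - t < 0 := by linarith [hs2.2]
  rcases div_neg_iff.1 hs1 with h4 | h4
  · linarith [h4.1]
  · linarith [h4.2]

variable {d : ℕ}

theorem sol_continuousOn {v : (Fin d → ℝ) → (Fin d → ℝ)} {x : ℝ → Fin d → ℝ}
    (hx : IsForwardSolution v x) : ContinuousOn x (Ici 0) :=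
  fun t ht => (hx t ht).continuousWithinAt

theorem sol_hasDerivAt {v : (Fin d → ℝ) → (Fin d → ℝ)} {x : ℝ → Fin d → ℝ}
    (hx : IsForwardSolution v x) {t : ℝ} (ht : 0 < t) : HasDerivAt x (v (x t)) t :=
  (hx t ht.le).hasDerivAt (Ici_mem_nhds ht)

theorem sol_right {v : (Fin d → ℝ) → (Fin d → ℝ)} {x : ℝ → Fin d → ℝ}
    (hx : IsForwardSolution v x) {t : ℝ} (ht : 0 ≤ t) : HasDerivWithinAt x (v (x t)) (Ici t) t :=
  (hx t ht).mono (Ici_subset_Ici.2 ht)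

theorem hasDerivAt_dot {x : ℝ → Fin d → ℝ} {x' : Fin d → ℝ} {t : ℝ} (hx : HasDerivAt x x' t)
    (w : Fin d → ℝ) : HasDerivAt (fun s => w ⬝ᵥ x s) (w ⬝ᵥ x') t := by
  simp only [dotProduct]
  exact HasDerivAt.fun_sum fun i _ => ((hasDerivAt_pi.1 hx) i).const_mul (w i)

theorem sol_sub_mem {v : (Fin d → ℝ) → (Fin d → ℝ)} {x : ℝ → Fin d → ℝ}
    (hx : IsForwardSolution v x) (S : Submodule ℝ (Fin d → ℝ)) (hv : ∀ y, v y ∈ S) {t : ℝ}
    (ht : 0 ≤ t) : x t - x 0 ∈ S := by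
  obtain ⟨S', hS'⟩ := S.exists_isCompl
  set π := LinearMap.toContinuousLinearMap (S'.projectionOnto S hS'.symm) with hπ
  have h1 : ∀ s ∈ Icc 0 t, π (x s) = π (x 0) := by
    apply constant_of_has_deriv_right_zero (f := fun s => π (x s))
    · exact π.continuous.comp_continuousOn ((sol_continuousOn hx).mono fun s hs => hs.1)
    · intro s hs
      have h2 := π.hasFDerivAt.comp_hasDerivWithinAt s (sol_right hx hs.1)
      have h3 : π (v (x s)) = 0 :=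
        (Submodule.projectionOnto_apply_eq_zero_iff hS'.symm).2 (hv _)
      rw [h3] at h2
      exact h2
  have h2 : π (x t - x 0) = 0 := by rw [map_sub, h1 t ⟨ht, le_rfl⟩, sub_self]
  exact (Submodule.projectionOnto_apply_eq_zero_iff hS'.symm).1 h2

theorem isClosed_sublevel {G : (Fin d → ℝ) → ℝ} (hG : Cvx G) {ρ : ℝ} (hρ : 0 < ρ) :
    IsClosed {y : Fin d → ℝ | (∀ i, ρ ≤ y i) ∧ G y ≤ 0} := by
  have h1 : IsClosed {y : Fin d → ℝ | ∀ i, ρ ≤ y i} := by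
    simp only [Set.ofPred_forall]
    exact isClosed_iInter fun i => isClosed_le continuous_const (continuous_apply i)
  have h2 : ContinuousOn G {y : Fin d → ℝ | ∀ i, ρ ≤ y i} :=
    hG.continuousOn.mono (fun y hy i => hρ.trans_le (hy i))
  exact h2.preimage_isClosed_of_isClosed h1 (isClosed_Iic (a := (0 : ℝ)))

/-- on an interval where compatible subgradients point against the field, `G` does not rise -/
theorem barrier_noRise {G : (Fin d → ℝ) → ℝ} (hG : Cvx G) {v : (Fin d → ℝ) → (Fin d → ℝ)}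
    {x : ℝ → Fin d → ℝ} (hx : IsForwardSolution v x) {a b : ℝ} (ha : 0 ≤ a) {γ m : ℝ}
    (hpos : ∀ t ∈ Icc a b, Pos (x t)) (h0 : G (x a) + γ * a ≤ m)
    (hdec : ∀ t ∈ Ioc a b, m < G (x t) + γ * t → ∃ w, IsSub G (x t) w ∧ w ⬝ᵥ v (x t) < -γ) :
    ∀ t ∈ Icc a b, G (x t) + γ * t ≤ m := by
  apply noRise (g := fun t => G (x t) + γ * t) _ h0
  · intro t ht hm
    obtain ⟨w, hw, hneg⟩ := hdec t ht hm
    have h1 := (hasDerivAt_dot (sol_hasDerivAt hx (ha.trans_lt ht.1)) w).add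
      ((hasDerivAt_id t).const_mul γ)
    obtain ⟨s, hs, hlt⟩ := exists_left_gt h1 (by linarith) ht.1
    refine ⟨s, hs, ?_⟩
    have h2 := hw (x s) (hpos s ⟨hs.1, hs.2.le.trans ht.2⟩)
    rw [dotProduct_sub] at h2
    simp only [Pi.add_apply, id] at hlt
    linarith
  · exact (hG.continuousOn.comp ((sol_continuousOn hx).mono fun s hs => ha.trans hs.1)
      hpos).add (by fun_prop)

theorem barrier_invariant {G : (Fin d → ℝ) → ℝ} (hG : Cvx G) {μ ρ : ℝ} (hμ : 0 < μ) (hρ : 0 < ρ)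
    (hbox : ∀ y, Pos y → G y ≤ μ → ∀ i, ρ ≤ y i) {v : (Fin d → ℝ) → (Fin d → ℝ)}
    {x : ℝ → Fin d → ℝ} (hx : IsForwardSolution v x)
    (hdec : ∀ t, 0 ≤ t → Pos (x t) → 0 < G (x t) → G (x t) ≤ μ →
      ∃ w, IsSub G (x t) w ∧ w ⬝ᵥ v (x t) < 0)
    (h0 : Pos (x 0)) (h0' : G (x 0) ≤ 0) : ∀ t, 0 ≤ t → Pos (x t) ∧ G (x t) ≤ 0 := by
  intro T hT
  set s : Set ℝ := x ⁻¹' {y : Fin d → ℝ | (∀ i, ρ ≤ y i) ∧ G y ≤ 0} with hs
  have hcl : IsClosed (s ∩ Icc 0 T) := by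
    rw [inter_comm]
    exact ((sol_continuousOn hx).mono fun s hs => hs.1).preimage_isClosed_of_isClosed
      isClosed_Icc (isClosed_sublevel hG hρ)
  have hsub : Icc 0 T ⊆ s := by
    refine hcl.Icc_subset_of_forall_mem_nhdsWithin ⟨hbox _ h0 (by linarith), h0'⟩ ?_
    rintro t ⟨ht1, ht2⟩
    have hopen : IsOpen ({y : Fin d → ℝ | Pos y} ∩ G ⁻¹' Iio μ) :=
      hG.continuousOn.isOpen_inter_preimage isOpen_pos isOpen_Iio
    have hmem : x t ∈ {y : Fin d → ℝ | Pos y} ∩ G ⁻¹' Iio μ :=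
      ⟨fun i => hρ.trans_le (ht1.1 i), lt_of_le_of_lt ht1.2 hμ⟩
    have h1 : x ⁻¹' ({y : Fin d → ℝ | Pos y} ∩ G ⁻¹' Iio μ) ∈ 𝓝[≥] t :=
      (sol_right hx ht2.1).continuousWithinAt.preimage_mem_nhdsWithin (hopen.mem_nhds hmem)
    obtain ⟨b, hb, hb'⟩ := mem_nhdsGE_iff_exists_Icc_subset.1 h1
    have h2 := barrier_noRise hG hx ht2.1 (b := b) (γ := 0) (m := 0) (fun u hu => (hb' hu).1)
      (by simpa using ht1.2) (fun u hu hm => by
        have h3 := hb' ⟨hu.1.le, hu.2⟩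
        simpa using hdec u (ht2.1.trans hu.1.le) h3.1 (by simpa using hm) (le_of_lt h3.2))
    refine Filter.mem_of_superset (Ioc_mem_nhdsGT hb) fun u hu => ?_
    have h3 := hb' ⟨hu.1.le, hu.2⟩
    exact ⟨hbox _ h3.1 (le_of_lt h3.2), by simpa using h2 u ⟨hu.1.le, hu.2⟩⟩
  have := hsub ⟨hT, le_rfl⟩
  exact ⟨fun i => hρ.trans_le (this.1 i), this.2⟩

theorem barrier_decay {G : (Fin d → ℝ) → ℝ} (hG : Cvx G) {v : (Fin d → ℝ) → (Fin d → ℝ)}
    {x : ℝ → Fin d → ℝ} (hx : IsForwardSolution v x) (hpos : ∀ t, 0 ≤ t → Pos (x t))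
    {T γ : ℝ} (hT : 0 ≤ T) (hγ : 0 < γ)
    (hdec : ∀ t, T ≤ t → 0 < G (x t) → ∃ w, IsSub G (x t) w ∧ w ⬝ᵥ v (x t) ≤ -γ) :
    ∃ T', 0 ≤ T' ∧ ∀ t, T' ≤ t → G (x t) ≤ 0 := by
  have h1 : ∃ T1, T ≤ T1 ∧ G (x T1) ≤ 0 := by
    by_contra hcon
    push Not at hcon
    set T2 := T + G (x T) / (γ / 2) with hT2
    have hGT := hcon T le_rfl
    have h2 : T ≤ T2 := by
      have : 0 ≤ G (x T) / (γ / 2) := by positivity
      linarith
    have h3 := barrier_noRise hG hx hT (b := T2) (γ := γ / 2) (m := G (x T) + γ / 2 * T)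
      (fun u hu => hpos u (hT.trans hu.1)) le_rfl (fun u hu _ => by
        obtain ⟨w, hw, hle⟩ := hdec u hu.1.le (hcon u hu.1.le)
        exact ⟨w, hw, by linarith⟩) T2 ⟨h2, le_rfl⟩
    have h4 : γ / 2 * T2 = γ / 2 * T + G (x T) := by rw [hT2]; field_simp
    linarith [hcon T2 h2]
  obtain ⟨T1, hT1, hG1⟩ := h1
  refine ⟨T1, hT.trans hT1, fun t ht => ?_⟩
  have h2 := barrier_noRise hG hx (hT.trans hT1) (b := t) (γ := 0) (m := 0)
    (fun u hu => hpos u (hT.trans (hT1.trans hu.1))) (by simpa using hG1) (fun u hu hm => by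
      obtain ⟨w, hw, hle⟩ := hdec u (hT1.trans hu.1.le) (by simpa using hm)
      exact ⟨w, hw, by linarith⟩) t ⟨ht, le_rfl⟩
  simpa using h2

theorem exists_global_solution {v : (Fin d → ℝ) → (Fin d → ℝ)} {K L : ℝ≥0}
    (hK : LipschitzWith K v) (hL : ∀ y, ‖v y‖ ≤ L) (x₀ : Fin d → ℝ) :
    ∃ x : ℝ → Fin d → ℝ, IsForwardSolution v x ∧ x 0 = x₀ := by
  have hloc : ∀ n : ℕ, ∃ α : ℝ → Fin d → ℝ, α 0 = x₀ ∧
      ∀ t ∈ Icc (0 : ℝ) n, HasDerivWithinAt α (v (α t)) (Icc (0 : ℝ) n) t := by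
    intro n
    have hpl : IsPicardLindelof (fun _ : ℝ => v) (tmin := 0) (tmax := n)
        ⟨0, le_rfl, Nat.cast_nonneg n⟩ x₀ (L * n) 0 L K :=
      IsPicardLindelof.of_time_independent (fun y _ => hL y) hK.lipschitzOnWith (by simp)
    exact hpl.exists_eq_forall_mem_Icc_hasDerivWithinAt₀
  choose α hα0 hα using hloc
  have huniq : ∀ n m : ℕ, n ≤ m → EqOn (α n) (α m) (Icc (0 : ℝ) n) := by
    intro n m hnm
    have hnm' : (n : ℝ) ≤ m := by exact_mod_cast hnm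
    refine ODE_solution_unique (v := fun _ => v) (fun _ => hK)
      (fun t ht => (hα n t ht).continuousWithinAt) (fun t ht => ?_)
      (fun t ht => ((hα m t ⟨ht.1, ht.2.trans hnm'⟩).continuousWithinAt).mono
        (Icc_subset_Icc_right hnm')) (fun t ht => ?_) (by rw [hα0, hα0])
    · exact (hα n t ⟨ht.1, ht.2.le⟩).mono_of_mem_nhdsWithin (Icc_mem_nhdsGE_of_mem ht)
    · exact (hα m t ⟨ht.1, ht.2.le.trans hnm'⟩).mono_of_mem_nhdsWithin
        (Icc_mem_nhdsGE_of_mem ⟨ht.1, ht.2.trans_le hnm'⟩)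
  have hagree : ∀ N : ℕ, ∀ s ∈ Icc (0 : ℝ) N, α ⌈s⌉₊ s = α N s := by
    intro N s hs
    exact huniq _ _ (Nat.ceil_le.2 hs.2) ⟨hs.1, Nat.le_ceil s⟩
  refine ⟨fun s => α ⌈s⌉₊ s, fun t ht => ?_, by simp [hα0]⟩
  obtain ⟨N, hN⟩ := exists_nat_gt t
  have h1 := (hα N t ⟨ht, hN.le⟩).congr_of_mem (f₁ := fun s => α ⌈s⌉₊ s)
    (fun s hs => hagree N s hs) ⟨ht, hN.le⟩
  have h2 : Icc (0 : ℝ) N ∈ 𝓝[Ici 0] t := by
    rw [← Ici_inter_Iic]
    exact inter_mem_nhdsWithin _ (Iic_mem_nhds hN)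
  show HasDerivWithinAt _ (v (α ⌈t⌉₊ t)) _ _
  rw [hagree N t ⟨ht, hN.le⟩]
  exact h1.mono_of_mem_nhdsWithin h2

theorem contDiff_field (R : Network d) (k : (Fin d → ℕ) × (Fin d → ℕ) → ℝ) :
    ContDiff ℝ 1 (field R k) := by
  unfold field
  refine ContDiff.sum fun r _ => ?_
  have h : ContDiff ℝ 1 fun x : Fin d → ℝ => k r * ∏ i, x i ^ r.1 i :=
    contDiff_const.mul (contDiff_prod fun i _ => (contDiff_apply ℝ ℝ i).pow _)
  exact h.smul (contDiff_const (c := reactionVector r))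

theorem field_mem (R : Network d) (k : (Fin d → ℕ) × (Fin d → ℕ) → ℝ) (y : Fin d → ℝ) :
    field R k y ∈ stoichSubspace R :=
  Submodule.sum_mem _ fun r hr => Submodule.smul_mem _ _ (Submodule.subset_span ⟨r, hr, rfl⟩)

theorem field_lipschitzOn (R : Network d) (k : (Fin d → ℕ) × (Fin d → ℕ) → ℝ)
    {s : Set (Fin d → ℝ)} (hs : IsCompact s) : ∃ K, LipschitzOnWith K (field R k) s :=
  LocallyLipschitzOn.exists_lipschitzOnWith_of_compact hs
    (contDiff_field R k).locallyLipschitz.locallyLipschitzOn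

/-- clamping to a box -/
def clip (lo hi : ℝ) (y : Fin d → ℝ) : Fin d → ℝ := fun i => max lo (min (y i) hi)

theorem clip_lipschitz (lo hi : ℝ) : LipschitzWith 1 (clip (d := d) lo hi) := by
  refine LipschitzWith.of_dist_le_mul fun y z => ?_
  simp only [NNReal.coe_one, one_mul]
  refine (dist_pi_le_iff dist_nonneg).2 fun i => ?_
  have h1 : LipschitzWith 1 fun t : ℝ => max lo (min t hi) :=
    (LipschitzWith.id.min_const hi).const_max lo
  have h2 := h1.dist_le_mul (y i) (z i)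
  simp only [NNReal.coe_one, one_mul] at h2
  exact h2.trans (dist_le_pi_dist y z i)

theorem clip_mem (lo hi : ℝ) (y : Fin d → ℝ) :
    clip lo hi y ∈ Set.pi univ fun _ : Fin d => Icc lo (max lo hi) :=
  fun _ _ => ⟨le_max_left _ _, max_le_max le_rfl (min_le_right _ _)⟩

theorem clip_eq {lo hi : ℝ} {y : Fin d → ℝ} (hy : ∀ i, lo ≤ y i ∧ y i ≤ hi) : clip lo hi y = y := by
  ext i
  rw [clip, min_eq_left (hy i).2, max_eq_right (hy i).1]

theorem exists_clipped_solution (R : Network d) (k : (Fin d → ℕ) × (Fin d → ℕ) → ℝ)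
    (lo hi : ℝ) (x₀ : Fin d → ℝ) :
    ∃ x : ℝ → Fin d → ℝ, IsForwardSolution (fun y => field R k (clip lo hi y)) x ∧ x 0 = x₀ := by
  have hc : IsCompact (Set.pi univ fun _ : Fin d => Icc lo (max lo hi)) :=
    isCompact_univ_pi fun _ => isCompact_Icc
  obtain ⟨K, hK⟩ := field_lipschitzOn R k hc
  obtain ⟨L, hL⟩ := hc.exists_bound_of_continuousOn (contDiff_field R k).continuous.continuousOn
  refine exists_global_solution (K := K * 1) (L := ⟨max L 0, le_max_right _ _⟩) ?_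
    (fun y => (hL _ (clip_mem lo hi y)).trans (le_max_left _ _)) x₀
  rw [← lipschitzOnWith_univ]
  exact hK.comp (clip_lipschitz lo hi).lipschitzOnWith fun y _ => clip_mem lo hi y

end Crest.Agent.R92
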