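import Crest.Agent.R92.KeyOpt

/-!
# Row 92: a convex function whose subgradients are order-compatible with `log x`
-/

set_option autoImplicit false

namespace Crest.Agent.R92

open Finset

theorem exists_pos_lb {α : Type*} {s : Set α} (hs : s.Finite) (g : α → ℝ)
    (hg : ∀ a ∈ s, 0 < g a) : ∃ κ : ℝ, 0 < κ ∧ κ ≤ 1 ∧ ∀ a ∈ s, κ ≤ g a := by
  rcases s.eq_empty_or_nonempty with rfl | hne
  · exact ⟨1, one_pos, le_rfl, by simp⟩
  · obtain ⟨a, ha, hmin⟩ := Set.exists_min_image s g hs hne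
    exact ⟨min 1 (g a), lt_min one_pos (hg a ha), min_le_left _ _,
      fun b hb => (min_le_right _ _).trans (hmin b hb)⟩

variable {ι : Type} [Fintype ι] [DecidableEq ι]

/-- tie functionals generated by a family of vectors -/
def tie (F : Set (ι → ℝ)) : Set (ι → ℝ) :=
  {τ | (∃ a ∈ F, ∃ m, τ = (-(a m)⁻¹) • a) ∨ ∃ j, τ = Pi.single j 1}

/-- the families, closed under one more elimination at each stage -/
def fam (A : Set (ι → ℝ)) : ℕ → Set (ι → ℝ)
  | 0 => A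
  | r + 1 => fam A r ∪ {c | ∃ τ ∈ tie (fam A r), ∃ τ' ∈ tie (fam A r), c = τ - τ'}

theorem tie_finite {F : Set (ι → ℝ)} (hF : F.Finite) : (tie F).Finite := by
  have h1 : ((fun q : (ι → ℝ) × ι => (-(q.1 q.2)⁻¹) • q.1) '' (F ×ˢ Set.univ)).Finite :=
    (hF.prod Set.finite_univ).image _
  have h2 : (Set.range fun j : ι => (Pi.single j 1 : ι → ℝ)).Finite := Set.finite_range _
  refine (h1.union h2).subset ?_
  rintro τ (⟨a, ha, m, rfl⟩ | ⟨j, rfl⟩)
  · exact Or.inl ⟨(a, m), ⟨ha, trivial⟩, rfl⟩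
  · exact Or.inr ⟨j, rfl⟩

theorem fam_finite {A : Set (ι → ℝ)} (hA : A.Finite) : ∀ r, (fam A r).Finite
  | 0 => hA
  | r + 1 => by
    have h := fam_finite hA r
    have h1 := ((tie_finite h).prod (tie_finite h)).image (fun q => q.1 - q.2)
    refine h.union (h1.subset ?_)
    rintro c ⟨τ, hτ, τ', hτ', rfl⟩
    exact ⟨(τ, τ'), ⟨hτ, hτ'⟩, rfl⟩

omit [Fintype ι] in
theorem fam_mono (A : Set (ι → ℝ)) : Monotone (fam A) :=
  monotone_nat_of_le_succ fun _ => Set.subset_union_left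

/-- `w` is order-compatible with `ξ` along the vectors of `A`, with tolerance `δ` -/
def Compat (A : Set (ι → ℝ)) (δ : ℝ) (w ξ : ι → ℝ) : Prop :=
  ∀ a ∈ A, 0 < a ⬝ᵥ w → δ ≤ a ⬝ᵥ ξ

/-- the domain on which the function attached to `I` is controlled -/
def Dom (I : Finset ι) (x : ι → ℝ) : Prop :=
  (∀ i ∈ I, 0 < x i) ∧ ∀ i ∈ I, ∀ j, j ∉ I → x i ≤ 1

theorem exists_par (A : Set (ι → ℝ)) (hA : A.Finite) (Λ₀ N : ℝ) (hN : 0 ≤ N) :
    ∃ P : Par ι, P.F 0 = A ∧ Λ₀ ≤ P.Λ ∧ (Fintype.card ι : ℝ) + 2 ≤ P.Λ ∧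
      2 * N + 1 ≤ P.κ ^ Fintype.card ι * P.G := by
  set d := Fintype.card ι with hd
  have hfin : ({q : (ι → ℝ) × ι | q.1 ∈ fam A d ∧ q.1 q.2 ≠ 0}).Finite :=
    ((fam_finite hA d).prod (Set.finite_univ (α := ι))).subset fun q hq => ⟨hq.1, trivial⟩
  obtain ⟨κ, hκ0, hκ1, hκ⟩ := exists_pos_lb hfin (fun q => |q.1 q.2|)
    (fun q hq => abs_pos.2 hq.2)
  have hκd : 0 < κ ^ d := pow_pos hκ0 _
  set G : ℝ := (2 * N + 2) / κ ^ d with hG
  have hG0 : 0 ≤ G := by positivity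
  have hκG : κ ^ d * G = 2 * N + 2 := by rw [hG]; field_simp
  set Q : ℝ := 3 * (d : ℝ) ^ 2 * G ^ (2 ^ d) with hQ
  have hQ0 : 0 ≤ Q := by positivity
  set Λ : ℝ := 2 * Q + d + 2 + |Λ₀| with hΛ
  have hd0 : (0 : ℝ) ≤ d := Nat.cast_nonneg _
  have hΛ0 := abs_nonneg Λ₀
  refine ⟨⟨fam A, fun r => tie (fam A r), κ, Λ, G, fun r => Set.subset_union_left,
    fun r a ha m => Or.inl ⟨a, ha, m, rfl⟩, fun r j => Or.inr ⟨j, rfl⟩,
    fun r τ hτ τ' hτ' => Or.inr ⟨τ, hτ, τ', hτ', rfl⟩, hκ0, hκ1,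
    fun r hr a ha m hm => hκ (a, m) ⟨fam_mono A hr ha, hm⟩, by linarith, by linarith, ?_⟩,
    rfl, ?_, ?_, ?_⟩
  · have h1 := Real.quadratic_le_exp_of_nonneg (x := Λ) (by linarith)
    have h2 : 3 * (d : ℝ) ^ 2 * (Λ * G ^ (2 ^ d)) = Q * Λ := by rw [hQ]; ring
    rw [← hd, h2]
    have h3 : Q * Λ ≤ Λ ^ 2 / 2 := by nlinarith
    linarith
  · show Λ₀ ≤ Λ
    linarith [le_abs_self Λ₀]
  · show (d : ℝ) + 2 ≤ Λ
    linarith
  · show 2 * N + 1 ≤ κ ^ d * G
    linarith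

omit [DecidableEq ι] in
theorem abs_dot_le (a e : ι → ℝ) {E : ℝ} (he : ∀ i, |e i| ≤ E) :
    |a ⬝ᵥ e| ≤ (∑ i, |a i|) * E := by
  rw [dotProduct, Finset.sum_mul]
  refine (Finset.abs_sum_le_sum_abs _ _).trans (Finset.sum_le_sum fun i _ => ?_)
  rw [abs_mul]
  exact mul_le_mul_of_nonneg_left (he i) (abs_nonneg _)

theorem key_lemma (A : Set (ι → ℝ)) (hA : A.Finite) (δ B : ℝ) (I : Finset ι) :
    ∃ C : ℝ, 0 ≤ C ∧ ∃ V : (ι → ℝ) → ℝ, ∀ x, Dom I x → ∃ (w : ι → ℝ) (φ : ℝ),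
      (∀ j, j ∉ I → w j = 0) ∧ V x = w ⬝ᵥ x - φ ∧ (∀ z, Dom I z → w ⬝ᵥ z - φ ≤ V z) ∧
      (∀ i ∈ I, |w i - Real.log (x i)| ≤ C) ∧ 0 ≤ φ ∧ φ ≤ C * ∑ i ∈ I, x i ∧
      ∀ ξ : ι → ℝ, (∀ i ∈ I, ξ i = Real.log (x i)) → (∀ j, j ∉ I → |ξ j| ≤ B) →
        Compat A δ w ξ := by
  obtain ⟨N0, hN0⟩ := (hA.image fun a => ∑ i, |a i|).bddAbove
  set N := max N0 0 with hN
  have hNa : ∀ a ∈ A, ∑ i, |a i| ≤ N := fun a ha =>
    (hN0 ⟨a, ha, rfl⟩).trans (le_max_left _ _)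
  obtain ⟨P, hPA, hP1, hP2, hP3⟩ := exists_par A hA (max δ B) N (le_max_right _ _)
  have hδ : δ ≤ P.Λ := (le_max_left _ _).trans hP1
  have hB : B ≤ P.Λ := (le_max_right _ _).trans hP1
  set s0 : St ι := ⟨I, 0, 0, 0⟩ with hs0
  have hgood : P.Good s0 := by
    refine ⟨fun _ _ => rfl, ?_, fun a _ => Or.inl (by simp [hs0])⟩
    simpa [hs0] using Nat.pow_le_pow_right (by norm_num) (Finset.card_le_univ I)
  set Fin : Set (St ι) := {f | P.Reach s0 f ∧ f.R = ∅} with hFin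
  have hFne : Fin.Nonempty := by
    rcases I.eq_empty_or_nonempty with h | h
    · exact ⟨s0, Relation.ReflTransGen.refl, h⟩
    · obtain ⟨u, b, hadm, -⟩ := P.near s0 (v := 0) (fun j _ => le_rfl)
      obtain ⟨f, h1, h2, -⟩ := P.fill (s := s0) h hadm
      exact ⟨f, h1, h2⟩
  have hoff : ∀ f ∈ Fin, ∀ j, j ∉ I → f.w j = 0 := fun f hf j hj =>
    (P.reach_facts hf.1).2.1 j hj
  have hdot : ∀ f ∈ Fin, ∀ x : ι → ℝ, f.w ⬝ᵥ x = ∑ i ∈ I, f.w i * x i := by
    intro f hf x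
    rw [dotProduct]
    symm
    apply Finset.sum_subset (Finset.subset_univ _)
    intro i _ hi
    rw [hoff f hf i hi, zero_mul]
  have hcost : ∀ f ∈ Fin, f.φ ≤ ∑ j ∈ I, Real.exp (f.w j) ∧
      ∑ j ∈ I, Real.exp (f.w j - P.Cmax) ≤ f.φ := by
    intro f hf
    have := P.reach_cost hgood hf.1
    rw [hf.2] at this
    simpa [hs0] using this
  have hbdd : ∀ x, Dom I x → BddAbove (val x '' Fin) := by
    intro x hx
    refine ⟨∑ i ∈ I, x i * (P.Cmax + Real.log (x i)), ?_⟩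
    rintro _ ⟨f, hf, rfl⟩
    unfold val
    rw [hdot f hf]
    have h1 := (hcost f hf).2
    have h2 : ∑ i ∈ I, f.w i * x i - ∑ j ∈ I, Real.exp (f.w j - P.Cmax) ≤
        ∑ i ∈ I, x i * (P.Cmax + Real.log (x i)) := by
      rw [← Finset.sum_sub_distrib]
      refine Finset.sum_le_sum fun i hi => ?_
      have hx0 := hx.1 i hi
      have h3 : Real.exp (f.w i - P.Cmax) =
          x i * Real.exp (f.w i - P.Cmax - Real.log (x i)) := by
        rw [Real.exp_sub _ (Real.log _), Real.exp_log hx0]; field_simp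
      have h4 := Real.add_one_le_exp (f.w i - P.Cmax - Real.log (x i))
      rw [h3]
      nlinarith
    linarith
  have hCm0 : 0 ≤ P.Cmax := P.Λ_pos.le.trans (P.Λ_le_rung _)
  set C := Real.exp (2 * P.Cmax) with hC
  have hC2 : 2 * P.Cmax ≤ C := by linarith [Real.add_one_le_exp (2 * P.Cmax)]
  refine ⟨C, (Real.exp_pos _).le, fun x => sSup (val x '' Fin), fun x hx => ?_⟩
  -- the closed set of good pairs
  set Gd : Set ((ι → ℝ) × ℝ) := {q | (∀ j, j ∉ I → q.1 j = 0) ∧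
      (∀ i ∈ I, |q.1 i - Real.log (x i)| ≤ C) ∧ 0 ≤ q.2 ∧ q.2 ≤ C * ∑ i ∈ I, x i ∧
      (∀ ξ : ι → ℝ, (∀ i ∈ I, ξ i = Real.log (x i)) → (∀ j, j ∉ I → |ξ j| ≤ B) →
        Compat A δ q.1 ξ) ∧ ∀ z, Dom I z → q.1 ⬝ᵥ z - q.2 ≤ sSup (val z '' Fin)} with hGd
  have hclosed : IsClosed Gd := by
    simp only [hGd, Set.ofPred_and, Set.ofPred_forall, Compat]
    refine IsClosed.inter ?_ (IsClosed.inter ?_ (IsClosed.inter ?_ (IsClosed.inter ?_
      (IsClosed.inter ?_ ?_))))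
    · exact isClosed_iInter fun j => isClosed_iInter fun _ => isClosed_eq (by fun_prop) (by fun_prop)
    · exact isClosed_iInter fun j => isClosed_iInter fun _ => isClosed_le (by fun_prop) (by fun_prop)
    · exact isClosed_le (by fun_prop) (by fun_prop)
    · exact isClosed_le (by fun_prop) (by fun_prop)
    · refine isClosed_iInter fun ξ => isClosed_iInter fun _ => isClosed_iInter fun _ =>
        isClosed_iInter fun a => isClosed_iInter fun _ => ?_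
      by_cases h : δ ≤ a ⬝ᵥ ξ
      · simp [h]
      · have h2 : {q : (ι → ℝ) × ℝ | 0 < a ⬝ᵥ q.1 → δ ≤ a ⬝ᵥ ξ} =
            {q : (ι → ℝ) × ℝ | a ⬝ᵥ q.1 ≤ 0} := by
          ext q; simp [h]
        rw [h2]
        exact isClosed_le (by fun_prop) (by fun_prop)
    · exact isClosed_iInter fun z => isClosed_iInter fun _ => isClosed_le (by fun_prop) (by fun_prop)
  have hcompact : IsCompact Gd := by
    refine Metric.isCompact_of_isClosed_isBounded hclosed ?_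
    have h1 : Gd ⊆ (Set.pi Set.univ fun i => Set.Icc (-(|Real.log (x i)| + C))
        (|Real.log (x i)| + C)) ×ˢ Set.Icc 0 (C * ∑ i ∈ I, x i) := by
      rintro q ⟨h1, h2, h3, h4, -⟩
      refine ⟨fun i _ => ?_, h3, h4⟩
      have hC0 : 0 ≤ C := (Real.exp_pos _).le
      by_cases hi : i ∈ I
      · have := abs_le.1 (h2 i hi)
        constructor <;> linarith [le_abs_self (Real.log (x i)), neg_abs_le (Real.log (x i))]
      · rw [h1 i hi]
        constructor <;> linarith [abs_nonneg (Real.log (x i))]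
    exact ((isCompact_univ_pi fun i => isCompact_Icc).prod isCompact_Icc).isBounded.subset h1
  obtain ⟨ε0, hε0, -, hε0x⟩ := exists_pos_lb I.finite_toSet x hx.1
  -- almost optimal histories are good
  have hnear : ∀ ε, 0 < ε → ε ≤ ε0 → ∃ q ∈ Gd, sSup (val x '' Fin) - ε ≤ q.1 ⬝ᵥ x - q.2 := by
    intro ε hε hεle
    obtain ⟨_, ⟨f, hf, rfl⟩, hlt⟩ := exists_lt_of_lt_csSup (hFne.image (val x))
      (show sSup (val x '' Fin) - ε < sSup (val x '' Fin) by linarith)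
    have hopt : P.Opt x ε s0 f := ⟨hf.1, hf.2, fun f' h1 h2 => by
      have := le_csSup (hbdd x hx) ⟨f', ⟨h1, h2⟩, rfl⟩
      linarith⟩
    have hup : P.Up x s0 := by
      intro i hi j hj
      have h1 := hx.2 i hi j hj
      have hd1 : (1 : ℝ) ≤ Fintype.card ι := by
        have : 1 ≤ Fintype.card ι := Fintype.card_pos_iff.2 ⟨i⟩
        exact_mod_cast this
      have h2 : 1 ≤ Real.exp (s0.w j + P.Λ * P.G ^ s0.p + 2) := by
        apply Real.one_le_exp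
        have := P.Λ_le_rung s0.p
        have h3 : s0.w j = 0 := rfl
        linarith [P.Λ_pos]
      nlinarith
    have herr := P.err hε _ s0 f rfl hgood hup hopt (fun i hi => hεle.trans (hε0x i hi))
    have hfg := P.good_reach hgood hf.1
    have hrung := P.rung_le_Cmax hfg
    have hΛr := P.Λ_le_rung f.p
    have hE : ∀ i ∈ I, |f.w i - Real.log (x i)| ≤ 2 * (P.Λ * P.G ^ f.p) := by
      intro i hi
      obtain ⟨h1, h2⟩ := herr i hi
      have hx0 := hx.1 i hi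
      have hd0 : (0 : ℝ) < Fintype.card ι := by
        have : 0 < Fintype.card ι := Fintype.card_pos_iff.2 ⟨i⟩
        exact_mod_cast this
      have h3 := (Real.le_log_iff_exp_le hx0).2 h1
      have h4 := Real.log_le_log hx0 h2
      rw [Real.log_mul hd0.ne' (Real.exp_pos _).ne', Real.log_exp] at h4
      have h5 := Real.log_le_self hd0.le
      rw [abs_le]
      constructor <;> linarith
    refine ⟨(f.w, f.φ), ⟨hoff f hf, fun i hi => (hE i hi).trans (by linarith), ?_, ?_, ?_, ?_⟩,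
      hlt.le⟩
    · exact (P.reach_facts hf.1).2.2.2.1
    · refine (hcost f hf).1.trans ?_
      rw [Finset.mul_sum]
      refine Finset.sum_le_sum fun i hi => ?_
      have h1 := (abs_le.1 (hE i hi)).2
      calc Real.exp (f.w i) ≤ Real.exp (2 * P.Cmax + Real.log (x i)) :=
            Real.exp_le_exp.2 (by linarith)
        _ = C * x i := by rw [Real.exp_add, Real.exp_log (hx.1 i hi)]
    · intro ξ hξ1 hξ2 a ha hpos
      have hcard : f.R.card = 0 := by rw [hf.2]; rfl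
      have h1 := hfg.2.2 a (by rw [hcard, hPA]; exact ha)
      have h2 : P.σ f ≤ a ⬝ᵥ f.w := by
        rcases h1 with h1 | h1
        · exact absurd h1 (ne_of_gt hpos)
        · rwa [abs_of_pos hpos] at h1
      have h3 : P.σ f = P.κ ^ Fintype.card ι * P.G * (P.Λ * P.G ^ f.p) := by
        simp only [Par.σ, hcard]
        rw [Nat.sub_zero, pow_zero, pow_succ]; ring
      have h4 : ∀ i, |(f.w - ξ) i| ≤ 2 * (P.Λ * P.G ^ f.p) := by
        intro i
        by_cases hi : i ∈ I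
        · rw [Pi.sub_apply, hξ1 i hi]; exact hE i hi
        · rw [Pi.sub_apply, hoff f hf i hi, zero_sub, abs_neg]
          linarith [hξ2 i hi, P.Λ_pos]
      have h5 := abs_dot_le a (f.w - ξ) h4
      rw [dotProduct_sub] at h5
      have h6 := (abs_le.1 h5).2
      have h7 := hNa a ha
      have h8 : 0 ≤ P.Λ * P.G ^ f.p := by linarith [P.Λ_pos]
      have h9 : (∑ i, |a i|) * (2 * (P.Λ * P.G ^ f.p)) ≤ N * (2 * (P.Λ * P.G ^ f.p)) := by
        gcongr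
      have h10 : (2 * N + 1) * (P.Λ * P.G ^ f.p) ≤
          P.κ ^ Fintype.card ι * P.G * (P.Λ * P.G ^ f.p) := by gcongr
      show δ ≤ a ⬝ᵥ ξ
      nlinarith
    · intro z hz
      exact le_csSup (hbdd z hz) ⟨f, hf, rfl⟩
  have hGne : Gd.Nonempty := by
    obtain ⟨q, hq, -⟩ := hnear ε0 hε0 le_rfl
    exact ⟨q, hq⟩
  obtain ⟨q, hq, hmax⟩ := hcompact.exists_isMaxOn hGne
    (f := fun q : (ι → ℝ) × ℝ => q.1 ⬝ᵥ x - q.2) (by fun_prop)
  obtain ⟨h1, h2, h3, h4, h5, h6⟩ := hq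
  refine ⟨q.1, q.2, h1, ?_, h6, h2, h3, h4, h5⟩
  refine le_antisymm ?_ (h6 x hx)
  apply le_of_forall_pos_le_add
  intro ε hε
  obtain ⟨q', hq', hle⟩ := hnear (min ε ε0) (lt_min hε hε0) (min_le_right _ _)
  have h7 : q'.1 ⬝ᵥ x - q'.2 ≤ q.1 ⬝ᵥ x - q.2 := hmax hq'
  have := min_le_left ε ε0
  show sSup (val x '' Fin) ≤ _
  linarith

end Crest.Agent.R92
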