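import Mathlib

/-!
# Row 92: histories of level placements

Coordinates are placed one after another at non-increasing levels.  Every placement is either a
tie with one of finitely many tie levels, or is far from all of them.
-/

set_option autoImplicit false

namespace Crest.Agent.R92

open Finset

/-- Parameters of the construction. -/
structure Par (ι : Type) [Fintype ι] [DecidableEq ι] where
  F : ℕ → Set (ι → ℝ)
  T : ℕ → Set (ι → ℝ)
  κ : ℝ
  Λ : ℝ
  G : ℝ
  F_mono : ∀ r, F r ⊆ F (r + 1)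
  T_elim : ∀ r, ∀ a ∈ F r, ∀ m, (-(a m)⁻¹) • a ∈ T r
  T_single : ∀ r j, Pi.single j (1 : ℝ) ∈ T r
  T_sub : ∀ r, ∀ τ ∈ T r, ∀ τ' ∈ T r, τ - τ' ∈ F (r + 1)
  κ_pos : 0 < κ
  κ_le_one : κ ≤ 1
  κ_le : ∀ r ≤ Fintype.card ι, ∀ a ∈ F r, ∀ m, a m ≠ 0 → κ ≤ |a m|
  two_le_Λ : 2 ≤ Λ
  two_le_κG : 2 ≤ κ ^ Fintype.card ι * G
  exp_big : 3 * (Fintype.card ι : ℝ) ^ 2 * (Λ * G ^ (2 ^ Fintype.card ι)) + Fintype.card ι + 1
    < Real.exp Λ

/-- A state: the coordinates still to be placed, the levels (zero on unplaced coordinates),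
the lower rung of the ladder and the accumulated cost. -/
@[ext] structure St (ι : Type) where
  R : Finset ι
  w : ι → ℝ
  p : ℕ
  φ : ℝ

variable {ι : Type} [Fintype ι] [DecidableEq ι] (P : Par ι)

namespace Par

/-- tolerance of the next placement -/
noncomputable def C (s : St ι) : ℝ := P.Λ * P.G ^ (s.p + 2 ^ (s.R.card - 1))

/-- separation guaranteed at a state -/
noncomputable def σ (s : St ι) : ℝ :=
  P.κ ^ (Fintype.card ι - s.R.card) * (P.Λ * P.G ^ (s.p + 2 ^ s.R.card))

/-- largest tolerance -/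
noncomputable def Cmax : ℝ := P.Λ * P.G ^ (2 ^ Fintype.card ι)

/-- tie levels -/
def lv (s : St ι) : Set ℝ := {x | ∃ τ ∈ P.T (s.R.card - 1), x = τ ⬝ᵥ s.w}

/-- discount in the cost of a placement -/
noncomputable def disc (s : St ι) (b : Bool) : ℝ := if b then P.C s else 0

/-- the state after placing `m` at level `t` (`b = true` for a tie) -/
noncomputable def next (s : St ι) (m : ι) (t : ℝ) (b : Bool) : St ι :=
  ⟨s.R.erase m, Function.update s.w m t, s.p + (if b then 2 ^ (s.R.card - 1) else 0),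
    s.φ + Real.exp (t - P.disc s b)⟩

/-- admissible level -/
def Adm (s : St ι) (t : ℝ) (b : Bool) : Prop :=
  (∀ j, j ∉ s.R → t ≤ s.w j) ∧ (b = true → t ∈ P.lv s) ∧
    (b = false → ∀ τ ∈ P.lv s, P.C s ≤ |t - τ|)

def Step (s s' : St ι) : Prop := ∃ m ∈ s.R, ∃ t b, P.Adm s t b ∧ s' = P.next s m t b

def Reach : St ι → St ι → Prop := Relation.ReflTransGen P.Step

def Good (s : St ι) : Prop :=
  (∀ m ∈ s.R, s.w m = 0) ∧ s.p + 2 ^ s.R.card ≤ 2 ^ Fintype.card ι ∧
    ∀ a ∈ P.F s.R.card, a ⬝ᵥ s.w = 0 ∨ P.σ s ≤ |a ⬝ᵥ s.w|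

theorem two_le_G : 2 ≤ P.G := by
  have h1 : P.κ ^ Fintype.card ι ≤ 1 := pow_le_one₀ P.κ_pos.le P.κ_le_one
  have h2 : 0 < P.κ ^ Fintype.card ι := pow_pos P.κ_pos _
  have h3 := P.two_le_κG
  have h4 : 0 < P.G := by
    by_contra h
    push Not at h
    nlinarith
  nlinarith

theorem one_le_G : 1 ≤ P.G := by linarith [P.two_le_G]

theorem Λ_pos : 0 < P.Λ := by linarith [P.two_le_Λ]

theorem rung_mono {a b : ℕ} (h : a ≤ b) : P.Λ * P.G ^ a ≤ P.Λ * P.G ^ b :=
  mul_le_mul_of_nonneg_left (pow_le_pow_right₀ P.one_le_G h) P.Λ_pos.le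

theorem Λ_le_rung (a : ℕ) : P.Λ ≤ P.Λ * P.G ^ a := by
  simpa using P.rung_mono (Nat.zero_le a)

theorem rung_succ (a : ℕ) : 2 * (P.Λ * P.G ^ a) ≤ P.Λ * P.G ^ (a + 1) := by
  have h1 : 0 ≤ P.Λ * P.G ^ a := le_trans P.Λ_pos.le (P.Λ_le_rung a)
  have h2 := P.two_le_G
  rw [pow_succ]
  nlinarith

theorem two_le_C (s : St ι) : 2 ≤ P.C s := le_trans P.two_le_Λ (P.Λ_le_rung _)

theorem disc_nonneg (s : St ι) (b : Bool) : 0 ≤ P.disc s b := by
  unfold disc
  split_ifs
  · linarith [P.two_le_C s]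
  · exact le_rfl

theorem disc_le_C (s : St ι) (b : Bool) : P.disc s b ≤ P.C s := by
  unfold disc
  split_ifs
  · exact le_rfl
  · linarith [P.two_le_C s]

theorem disc_le_next (s : St ι) (m : ι) (t : ℝ) (b : Bool) :
    P.disc s b ≤ P.Λ * P.G ^ (P.next s m t b).p := by
  cases b
  · simp only [disc, next, Bool.false_eq_true, if_false]
    exact le_trans P.Λ_pos.le (P.Λ_le_rung _)
  · simp [disc, next, C]

theorem C_le_Cmax {s : St ι} (hs : P.Good s) : P.C s ≤ P.Cmax := by
  apply P.rung_mono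
  have h1 : 2 ^ (s.R.card - 1) ≤ 2 ^ s.R.card := Nat.pow_le_pow_right (by norm_num) (Nat.sub_le _ _)
  have h2 := hs.2.1
  omega

theorem rung_le_Cmax {s : St ι} (hs : P.Good s) : P.Λ * P.G ^ s.p ≤ P.Cmax := by
  apply P.rung_mono
  have h2 := hs.2.1
  have : 0 < 2 ^ s.R.card := by positivity
  omega

theorem two_C_le_σ {s : St ι} (hne : s.R.Nonempty) : 2 * P.C s ≤ P.σ s := by
  have hc : 1 ≤ s.R.card := hne.card_pos
  have h1 : s.p + 2 ^ (s.R.card - 1) + 1 ≤ s.p + 2 ^ s.R.card := by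
    obtain ⟨r, hr⟩ : ∃ r, s.R.card = r + 1 := ⟨s.R.card - 1, by omega⟩
    rw [hr, Nat.add_sub_cancel, pow_succ]
    have : 0 < 2 ^ r := by positivity
    omega
  have h2 := P.rung_mono h1
  have h3 : P.κ ^ Fintype.card ι ≤ P.κ ^ (Fintype.card ι - s.R.card) :=
    pow_le_pow_of_le_one P.κ_pos.le P.κ_le_one (Nat.sub_le _ _)
  have h4 := P.two_le_κG
  have h5 : 0 ≤ P.C s := by linarith [P.two_le_C s]
  have h6 : P.Λ * P.G ^ (s.p + 2 ^ (s.R.card - 1) + 1) = P.G * P.C s := by
    rw [pow_succ, C]; ring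
  have h7 : 0 ≤ P.κ ^ Fintype.card ι := (pow_pos P.κ_pos _).le
  have hG : 0 ≤ P.G := by linarith [P.two_le_G]
  calc 2 * P.C s ≤ (P.κ ^ Fintype.card ι * P.G) * P.C s := by gcongr
    _ = P.κ ^ Fintype.card ι * (P.G * P.C s) := by ring
    _ ≤ P.κ ^ (Fintype.card ι - s.R.card) * (P.Λ * P.G ^ (s.p + 2 ^ s.R.card)) := by
        rw [← h6]
        apply mul_le_mul h3 h2
        · rw [h6]; positivity
        · exact (pow_pos P.κ_pos _).le

theorem w_mem_lv (s : St ι) (j : ι) : s.w j ∈ P.lv s :=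
  ⟨Pi.single j 1, P.T_single _ j, by simp⟩

/-- two distinct tie levels are far apart -/
theorem lv_sep {s : St ι} (hs : P.Good s) (hne : s.R.Nonempty) {x y : ℝ} (hx : x ∈ P.lv s)
    (hy : y ∈ P.lv s) : x = y ∨ P.σ s ≤ |x - y| := by
  obtain ⟨τ, hτ, rfl⟩ := hx
  obtain ⟨τ', hτ', rfl⟩ := hy
  have hc : 1 ≤ s.R.card := hne.card_pos
  have h := P.T_sub _ τ hτ τ' hτ'
  rw [Nat.sub_add_cancel hc] at h
  rcases hs.2.2 _ h with h0 | h0
  · left
    rw [sub_dotProduct] at h0
    linarith
  · right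
    rwa [sub_dotProduct] at h0

theorem dot_update (a w : ι → ℝ) (m : ι) (t : ℝ) (hw : w m = 0) :
    a ⬝ᵥ Function.update w m t = a ⬝ᵥ w + a m * t := by
  have : Function.update w m t = w + Pi.single m t := by
    ext i
    by_cases h : i = m
    · subst h; simp [hw]
    · simp [h]
  rw [this, dotProduct_add, dotProduct_single]

theorem good_next {s : St ι} (hs : P.Good s) {m : ι} (hm : m ∈ s.R) {t : ℝ} {b : Bool}
    (h : P.Adm s t b) : P.Good (P.next s m t b) := by
  have hne : s.R.Nonempty := ⟨m, hm⟩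
  have hc : 1 ≤ s.R.card := hne.card_pos
  obtain ⟨r, hr⟩ : ∃ r, s.R.card = r + 1 := ⟨s.R.card - 1, by omega⟩
  have hcard : (P.next s m t b).R.card = r := by
    simp [next, Finset.card_erase_of_mem hm, hr]
  have hrd : r + 1 ≤ Fintype.card ι := hr ▸ Finset.card_le_univ _
  have hp : (P.next s m t b).p + 2 ^ r ≤ s.p + 2 ^ (r + 1) := by
    simp only [next, hr, Nat.add_sub_cancel, pow_succ]
    split_ifs <;> omega
  refine ⟨?_, ?_, ?_⟩
  · intro i hi
    simp only [next, Finset.mem_erase] at hi ⊢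
    rw [Function.update_of_ne hi.1]
    exact hs.1 i hi.2
  · rw [hcard]
    have := hs.2.1
    rw [hr] at this
    omega
  · intro a ha
    rw [hcard] at ha
    have hκr : P.κ ^ (Fintype.card ι - r) = P.κ * P.κ ^ (Fintype.card ι - (r + 1)) := by
      rw [← pow_succ']
      congr 1
      omega
    have hκ1 : P.κ ^ (Fintype.card ι - (r + 1)) ≤ 1 := pow_le_one₀ P.κ_pos.le P.κ_le_one
    have hκ0 : 0 < P.κ ^ (Fintype.card ι - (r + 1)) := pow_pos P.κ_pos _
    have hσ : P.σ (P.next s m t b) ≤ P.κ * P.σ s := by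
      unfold σ
      rw [hcard, hr, hκr, mul_assoc]
      apply mul_le_mul_of_nonneg_left _ P.κ_pos.le
      exact mul_le_mul_of_nonneg_left (P.rung_mono hp) hκ0.le
    have hσ0 : 0 ≤ P.σ s := by linarith [P.two_C_le_σ hne, P.two_le_C s]
    have hw : a ⬝ᵥ (P.next s m t b).w = a ⬝ᵥ s.w + a m * t := dot_update a s.w m t (hs.1 m hm)
    by_cases ham : a m = 0
    · rw [hw, ham, zero_mul, add_zero]
      rcases hs.2.2 a (hr ▸ P.F_mono r ha) with h0 | h0
      · exact Or.inl h0
      · right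
        have := P.κ_le_one
        nlinarith
    · have hτ : ((-(a m)⁻¹) • a) ⬝ᵥ s.w ∈ P.lv s :=
        ⟨_, by rw [hr, Nat.add_sub_cancel]; exact P.T_elim r a ha m, rfl⟩
      have hw2 : a ⬝ᵥ (P.next s m t b).w = a m * (t - ((-(a m)⁻¹) • a) ⬝ᵥ s.w) := by
        rw [hw, smul_dotProduct, smul_eq_mul]
        field_simp
        ring
      have hκa := P.κ_le r (by omega) a ha m ham
      rw [hw2, abs_mul]
      cases b
      · right
        have h1 := h.2.2 rfl _ hτ
        have h2 : P.σ (P.next s m t false) ≤ P.κ * P.C s := by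
          unfold σ
          rw [hcard, hκr, mul_assoc]
          apply mul_le_mul_of_nonneg_left _ P.κ_pos.le
          have h3 : P.Λ * P.G ^ ((P.next s m t false).p + 2 ^ r) = P.C s := by
            simp [next, C, hr]
          rw [h3]
          have := P.two_le_C s
          nlinarith
        calc _ ≤ P.κ * P.C s := h2
          _ ≤ _ := mul_le_mul hκa h1 (by linarith [P.two_le_C s]) (abs_nonneg _)
      · rcases P.lv_sep hs hne (h.2.1 rfl) hτ with h0 | h0
        · left
          rw [← h0]; simp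
        · right
          calc _ ≤ P.κ * P.σ s := hσ
            _ ≤ _ := mul_le_mul hκa h0 hσ0 (abs_nonneg _)

theorem good_reach {s f : St ι} (hs : P.Good s) (h : P.Reach s f) : P.Good f := by
  induction h with
  | refl => exact hs
  | tail _ hst ih =>
    obtain ⟨m, hm, t, b, hadm, rfl⟩ := hst
    exact P.good_next ih hm hadm

theorem reach_facts {s f : St ι} (h : P.Reach s f) :
    f.R ⊆ s.R ∧ (∀ j, j ∉ s.R → f.w j = s.w j) ∧ s.p ≤ f.p ∧ s.φ ≤ f.φ ∧
      (∀ j, j ∉ s.R → ∀ i ∈ s.R, i ∉ f.R → f.w i ≤ s.w j) := by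
  induction h with
  | refl => exact ⟨subset_rfl, fun _ _ => rfl, le_rfl, le_rfl, fun _ _ i hi hi' => absurd hi hi'⟩
  | @tail g _ _ hst ih =>
    obtain ⟨m, hm, t, b, hadm, rfl⟩ := hst
    obtain ⟨h1, h2, h3, h4, h5⟩ := ih
    refine ⟨(Finset.erase_subset _ _).trans h1, ?_, ?_, ?_, ?_⟩
    · intro j hj
      have : j ≠ m := fun e => hj (e ▸ h1 hm)
      simp only [next]
      rw [Function.update_of_ne this]
      exact h2 j hj
    · simp only [next]; omega
    · simp only [next]
      linarith [Real.exp_pos (t - P.disc g b)]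
    · intro j hj i hi hi'
      by_cases e : i = m
      · subst e
        simp only [next, Function.update_self]
        rw [← h2 j hj]
        exact hadm.1 j (fun h' => hj (h1 h'))
      · simp only [next, Finset.mem_erase, not_and] at hi' ⊢
        rw [Function.update_of_ne e]
        exact h5 j hj i hi (hi' e)

theorem reach_cost {s f : St ι} (hs : P.Good s) (h : P.Reach s f) :
    f.φ ≤ s.φ + ∑ j ∈ s.R \ f.R, Real.exp (f.w j) ∧
      s.φ + ∑ j ∈ s.R \ f.R, Real.exp (f.w j - P.Cmax) ≤ f.φ := by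
  induction h with
  | refl => simp
  | @tail g _ hg hst ih =>
    obtain ⟨m, hm, t, b, hadm, rfl⟩ := hst
    have hsub := (P.reach_facts hg).1
    have hgood := P.good_reach hs hg
    have hset : s.R \ (P.next g m t b).R = insert m (s.R \ g.R) := by
      ext i
      simp only [next, Finset.mem_sdiff, Finset.mem_erase, Finset.mem_insert]
      constructor
      · rintro ⟨h1, h2⟩
        by_cases e : i = m
        · exact Or.inl e
        · exact Or.inr ⟨h1, fun h3 => h2 ⟨e, h3⟩⟩
      · rintro (e | ⟨h1, h2⟩)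
        · subst e; exact ⟨hsub hm, fun h => h.1 rfl⟩
        · exact ⟨h1, fun h => h2 h.2⟩
    have hnot : m ∉ s.R \ g.R := by simp [hm]
    have hw : ∀ j ∈ s.R \ g.R, (P.next g m t b).w j = g.w j := by
      intro j hj
      have : j ≠ m := fun e => hnot (e ▸ hj)
      simp only [next]
      rw [Function.update_of_ne this]
    rw [hset, Finset.sum_insert hnot, Finset.sum_insert hnot,
      Finset.sum_congr rfl (fun j hj => by rw [hw j hj]),
      Finset.sum_congr rfl (fun j hj => by rw [hw j hj] :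
        ∀ j ∈ s.R \ g.R, Real.exp ((P.next g m t b).w j - P.Cmax) = Real.exp (g.w j - P.Cmax))]
    have hm' : (P.next g m t b).w m = t := by simp [next]
    have hφ : (P.next g m t b).φ = g.φ + Real.exp (t - P.disc g b) := rfl
    rw [hm', hφ]
    have h1 : Real.exp (t - P.disc g b) ≤ Real.exp t :=
      Real.exp_le_exp.2 (by linarith [P.disc_nonneg g b])
    have h2 : Real.exp (t - P.Cmax) ≤ Real.exp (t - P.disc g b) :=
      Real.exp_le_exp.2 (by linarith [P.disc_le_C g b, P.C_le_Cmax hgood])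
    constructor <;> linarith [ih.1, ih.2]

/-- put all remaining coordinates at the lowest level already used -/
theorem fill0 : ∀ (n : ℕ) (s : St ι), s.R.card = n → ∀ j, j ∉ s.R →
    (∀ k, k ∉ s.R → s.w j ≤ s.w k) →
    ∃ f, P.Reach s f ∧ f.R = ∅ ∧ (∀ i ∈ s.R, f.w i = s.w j) ∧
      f.φ ≤ s.φ + n * Real.exp (s.w j - P.Λ * P.G ^ s.p) := by
  intro n
  induction n with
  | zero =>
    intro s hs j _ _
    have : s.R = ∅ := Finset.card_eq_zero.1 hs
    exact ⟨s, Relation.ReflTransGen.refl, this, by simp [this], by simp⟩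
  | succ n ih =>
    intro s hs j hj hmin
    obtain ⟨m, hm⟩ : s.R.Nonempty := Finset.card_pos.1 (by omega)
    have hadm : P.Adm s (s.w j) true := ⟨hmin, fun _ => P.w_mem_lv s j, fun h => by simp at h⟩
    have hjm : j ≠ m := fun e => hj (e ▸ hm)
    set s1 := P.next s m (s.w j) true with hs1
    have hwj : s1.w j = s.w j := by simp only [hs1, next]; rw [Function.update_of_ne hjm]
    have hwm : s1.w m = s.w j := by simp [hs1, next]
    obtain ⟨f, hf1, hf2, hf3, hf4⟩ := ih s1 (by simp [hs1, next, Finset.card_erase_of_mem hm, hs]) j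
      (by simp [hs1, next, hj]) (by
        intro k hk
        rw [hwj]
        by_cases e : k = m
        · rw [e, hwm]
        · have hk' : k ∉ s.R := by
            intro h'
            exact hk (by simp [hs1, next, e, h'])
          have : s1.w k = s.w k := by simp only [hs1, next]; rw [Function.update_of_ne e]
          rw [this]
          exact hmin k hk')
    refine ⟨f, Relation.ReflTransGen.head ⟨m, hm, _, _, hadm, rfl⟩ hf1, hf2, ?_, ?_⟩
    · intro i hi
      by_cases e : i = m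
      · rw [e, (P.reach_facts hf1).2.1 m (by simp [hs1, next]), hwm]
      · rw [hf3 i (by simp [hs1, next, e, hi]), hwj]
    · have h1 : Real.exp (s1.w j - P.Λ * P.G ^ s1.p) ≤ Real.exp (s.w j - P.Λ * P.G ^ s.p) := by
        rw [hwj]
        apply Real.exp_le_exp.2
        have : s.p ≤ s1.p := by simp [hs1, next]
        linarith [P.rung_mono this]
      have h2 : s1.φ = s.φ + Real.exp (s.w j - P.C s) := by simp [hs1, next, disc]
      have h3 : Real.exp (s.w j - P.C s) ≤ Real.exp (s.w j - P.Λ * P.G ^ s.p) := by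
        apply Real.exp_le_exp.2
        have := P.rung_mono (Nat.le_add_right s.p (2 ^ (s.R.card - 1)))
        unfold C
        linarith
      have h4 : (n : ℝ) * Real.exp (s1.w j - P.Λ * P.G ^ s1.p) ≤
          n * Real.exp (s.w j - P.Λ * P.G ^ s.p) := by gcongr
      push_cast
      linarith

/-- put all remaining coordinates at one admissible level -/
theorem fill {s : St ι} (hne : s.R.Nonempty) {u : ℝ} {b : Bool} (hadm : P.Adm s u b) :
    ∃ f, P.Reach s f ∧ f.R = ∅ ∧ (∀ i ∈ s.R, f.w i = u) ∧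
      f.φ ≤ s.φ + s.R.card * Real.exp (u - P.disc s b) := by
  obtain ⟨m, hm⟩ := hne
  set s1 := P.next s m u b with hs1
  have hwm : s1.w m = u := by simp [hs1, next]
  have hc : 1 ≤ s.R.card := Finset.card_pos.2 ⟨m, hm⟩
  obtain ⟨f, hf1, hf2, hf3, hf4⟩ := P.fill0 (s.R.card - 1) s1
    (by simp [hs1, next, Finset.card_erase_of_mem hm]) m (by simp [hs1, next]) (by
      intro k hk
      rw [hwm]
      by_cases e : k = m
      · rw [e, hwm]
      · have hk' : k ∉ s.R := by
          intro h'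
          exact hk (by simp [hs1, next, e, h'])
        have : s1.w k = s.w k := by simp only [hs1, next]; rw [Function.update_of_ne e]
        rw [this]
        exact hadm.1 k hk')
  refine ⟨f, Relation.ReflTransGen.head ⟨m, hm, _, _, hadm, rfl⟩ hf1, hf2, ?_, ?_⟩
  · intro i hi
    by_cases e : i = m
    · rw [e, (P.reach_facts hf1).2.1 m (by simp [hs1, next]), hwm]
    · rw [hf3 i (by simp [hs1, next, e, hi]), hwm]
  · have h1 : Real.exp (s1.w m - P.Λ * P.G ^ s1.p) ≤ Real.exp (u - P.disc s b) := by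
      rw [hwm]
      apply Real.exp_le_exp.2
      linarith [P.disc_le_next s m u b]
    have h2 : s1.φ = s.φ + Real.exp (u - P.disc s b) := rfl
    have h4 : ((s.R.card - 1 : ℕ) : ℝ) * Real.exp (s1.w m - P.Λ * P.G ^ s1.p) ≤
        ((s.R.card - 1 : ℕ) : ℝ) * Real.exp (u - P.disc s b) := by gcongr
    have h5 : ((s.R.card - 1 : ℕ) : ℝ) = s.R.card - 1 := by
      rw [Nat.cast_sub hc]; simp
    rw [h5] at h4 hf4
    linarith

/-- there is an admissible level close to any value below the used levels -/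
theorem near (s : St ι) {v : ℝ} (hv : ∀ j, j ∉ s.R → v ≤ s.w j) :
    ∃ u b, P.Adm s u b ∧ u - P.disc s b ≤ v ∧ (u = v ∨ (u ∈ P.lv s ∧ |u - v| < P.C s)) := by
  by_cases h : ∀ τ ∈ P.lv s, P.C s ≤ |v - τ|
  · exact ⟨v, false, ⟨hv, fun h => by simp at h, fun _ => h⟩, by simp [disc], Or.inl rfl⟩
  · push Not at h
    obtain ⟨τ, hτ, hlt⟩ := h
    have hlt' := abs_lt.1 hlt
    by_cases h2 : ∀ j, j ∉ s.R → τ ≤ s.w j
    · refine ⟨τ, true, ⟨h2, fun _ => hτ, fun h => by simp at h⟩, ?_, Or.inr ⟨hτ, ?_⟩⟩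
      · simp only [disc, if_true]; linarith
      · rwa [abs_sub_comm]
    · push Not at h2
      obtain ⟨j, hj, hjτ⟩ := h2
      obtain ⟨j0, hj0, hmin⟩ := Finset.exists_min_image s.Rᶜ s.w ⟨j, by simpa using hj⟩
      have hj0' : j0 ∉ s.R := by simpa using hj0
      have h3 := hmin j (by simpa using hj)
      have h4 := hv j0 hj0'
      refine ⟨s.w j0, true, ⟨fun k hk => hmin k (by simpa using hk), fun _ => P.w_mem_lv s j0,
        fun h => by simp at h⟩, ?_, Or.inr ⟨P.w_mem_lv s j0, ?_⟩⟩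
      · simp only [disc, if_true]; linarith
      · rw [abs_lt]; constructor <;> linarith

theorem next_swap (s : St ι) {a c : ι} (hac : a ≠ c) (ha : a ∈ s.R) (hc : c ∈ s.R) (t : ℝ)
    (b : Bool) :
    P.next (P.next s a t b) c t true = P.next (P.next s c t b) a t true := by
  have h1 : (s.R.erase a).card = (s.R.erase c).card := by
    rw [Finset.card_erase_of_mem ha, Finset.card_erase_of_mem hc]
  ext1
  · simp only [next]; exact Finset.erase_right_comm
  · simp only [next]; exact Function.update_comm hac _ _ _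
  · simp only [next, h1]
  · simp only [next, disc, C, h1]

end Par

end Crest.Agent.R92
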