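import Crest.Agent.R92.KeyDefs

/-!
# Row 92: almost optimal histories place every coordinate near its logarithm
-/

set_option autoImplicit false

namespace Crest.Agent.R92

open Finset

variable {ι : Type} [Fintype ι] [DecidableEq ι] (P : Par ι)

/-- value of a state at a point -/
noncomputable def val (x : ι → ℝ) (f : St ι) : ℝ := f.w ⬝ᵥ x - f.φ

namespace Par

/-- `f` is an `ε`-optimal final state among those reachable from `s` -/
def Opt (x : ι → ℝ) (ε : ℝ) (s f : St ι) : Prop :=
  P.Reach s f ∧ f.R = ∅ ∧ ∀ f', P.Reach s f' → f'.R = ∅ → val x f' ≤ val x f + ε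

theorem Opt.tail {x : ι → ℝ} {ε : ℝ} {s s1 f : St ι} (h : P.Opt x ε s f) (h1 : P.Step s s1)
    (h2 : P.Reach s1 f) : P.Opt x ε s1 f :=
  ⟨h2, h.2.1, fun f' hf' he => h.2.2 f' (Relation.ReflTransGen.head h1 hf') he⟩

theorem val_sub {x : ι → ℝ} {s f f' : St ι} (h : P.Reach s f) (h' : P.Reach s f') :
    val x f' - val x f = ∑ i ∈ s.R, (f'.w i - f.w i) * x i - f'.φ + f.φ := by
  have h1 := (P.reach_facts h).2.1
  have h2 := (P.reach_facts h').2.1
  have : f'.w ⬝ᵥ x - f.w ⬝ᵥ x = ∑ i ∈ s.R, (f'.w i - f.w i) * x i := by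
    rw [← sub_dotProduct, dotProduct]
    symm
    apply Finset.sum_subset (Finset.subset_univ _)
    intro i _ hi
    rw [h1 i hi, h2 i hi]; simp
  unfold val
  linarith

theorem card_le_d (s : St ι) : (s.R.card : ℝ) ≤ Fintype.card ι := by
  exact_mod_cast Finset.card_le_univ _

/-- comparison with a competitor that raises all remaining levels by at least two -/
theorem cmp {x : ι → ℝ} {ε : ℝ} {s f : St ι} (h : P.Opt x ε s f) (hε0 : 0 < ε)
    (hε : ∀ i ∈ s.R, ε ≤ x i) {t u v : ℝ} {b : Bool} (ht : ∀ i ∈ s.R, f.w i ≤ t)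
    (hadm : P.Adm s u b) (hu : t + 2 ≤ u) (hv : u - P.disc s b ≤ v) :
    ∀ i ∈ s.R, x i ≤ Fintype.card ι * Real.exp v := by
  intro i hi
  obtain ⟨f', h1, h2, h3, h4⟩ := P.fill ⟨i, hi⟩ hadm
  have h5 := h.2.2 f' h1 h2
  have h6 := P.val_sub (x := x) h.1 h1
  have h7 : 2 * x i ≤ ∑ k ∈ s.R, (f'.w k - f.w k) * x k := by
    have h8 : ∀ k ∈ s.R, 2 * x k ≤ (f'.w k - f.w k) * x k := by
      intro k hk
      have := hε k hk
      have h9 := ht k hk
      rw [h3 k hk]
      nlinarith
    calc 2 * x i ≤ (f'.w i - f.w i) * x i := h8 i hi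
      _ ≤ _ := Finset.single_le_sum (f := fun k => (f'.w k - f.w k) * x k)
          (fun k hk => le_trans (by linarith [hε k hk]) (h8 k hk)) hi
  have h9 := (P.reach_facts h.1).2.2.2.1
  have h10 : (s.R.card : ℝ) * Real.exp (u - P.disc s b) ≤ Fintype.card ι * Real.exp v :=
    mul_le_mul (card_le_d s) (Real.exp_le_exp.2 hv) (Real.exp_pos _).le (Nat.cast_nonneg _)
  linarith [hε i hi]

/-- levels of a final state reached through a first step at level `t` are at most `t` -/
theorem le_first {s f : St ι} {m : ι} {t : ℝ} {b : Bool}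
    (h : P.Reach (P.next s m t b) f) (hf : f.R = ∅) : ∀ i ∈ s.R, f.w i ≤ t := by
  intro i hi
  obtain ⟨_, h2, _, _, h5⟩ := P.reach_facts h
  have hm : m ∉ (P.next s m t b).R := by simp [next]
  have hwm : (P.next s m t b).w m = t := by simp [next]
  by_cases e : i = m
  · rw [e, h2 m hm, hwm]
  · rw [← hwm]
    exact h5 m hm i (by simp [next, e, hi]) (by simp [hf])

theorem w_first {s f : St ι} {m : ι} {t : ℝ} {b : Bool}
    (h : P.Reach (P.next s m t b) f) : f.w m = t := by
  rw [(P.reach_facts h).2.1 m (by simp [next])]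
  simp [next]

/-- if the next level is not the lowest used level, the remaining coordinates are small -/
theorem alpha {x : ι → ℝ} {ε : ℝ} {s f : St ι} (hs : P.Good s) (h : P.Opt x ε s f) (hε0 : 0 < ε)
    (hε : ∀ i ∈ s.R, ε ≤ x i) {m : ι} (hm : m ∈ s.R) {t : ℝ} {b : Bool} (hadm : P.Adm s t b)
    (hr : P.Reach (P.next s m t b) f) {j : ι} (hj : j ∉ s.R)
    (hmin : ∀ k, k ∉ s.R → s.w j ≤ s.w k) (hne : t ≠ s.w j) :
    ∀ i ∈ s.R, x i ≤ Fintype.card ι * Real.exp (s.w j - P.C s) := by
  have h1 : t ≤ s.w j := hadm.1 j hj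
  have h2 : t + P.C s ≤ s.w j := by
    cases b
    · have := hadm.2.2 rfl _ (P.w_mem_lv s j)
      rw [abs_of_nonpos (by linarith)] at this
      linarith
    · rcases P.lv_sep hs ⟨m, hm⟩ (hadm.2.1 rfl) (P.w_mem_lv s j) with h0 | h0
      · exact absurd h0 hne
      · rw [abs_of_nonpos (by linarith)] at h0
        linarith [P.two_C_le_σ ⟨m, hm⟩, P.two_le_C s]
  have hadm' : P.Adm s (s.w j) true := ⟨hmin, fun _ => P.w_mem_lv s j, fun h => by simp at h⟩
  exact P.cmp h hε0 hε (P.le_first hr h.2.1) hadm' (by linarith [P.two_le_C s])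
    (by simp [disc])

/-- lower bound for a coordinate in terms of its level -/
theorem beta {x : ι → ℝ} {ε : ℝ} (hε0 : 0 < ε) : ∀ (n : ℕ) (s f : St ι), s.R.card = n →
    P.Good s → P.Opt x ε s f → (∀ i ∈ s.R, ε ≤ x i) → ∀ a ∈ s.R, ∀ (t : ℝ) (b : Bool),
    P.Adm s t b → P.Reach (P.next s a t b) f →
    Real.exp (t - P.Λ * P.G ^ f.p - P.Λ) ≤ x a := by
  intro n
  induction n using Nat.strong_induction_on with
  | _ n ih =>
  intro s f hn hs hopt hε a ha t b hadm hr
  set s1 := P.next s a t b with hs1
  have hs1good : P.Good s1 := P.good_next hs ha hadm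
  have hopt1 : P.Opt x ε s1 f := Opt.tail P hopt ⟨a, ha, t, b, hadm, rfl⟩ hr
  have ha1 : a ∉ s1.R := by simp [hs1, next]
  have hwa : s1.w a = t := by simp [hs1, next]
  have hε1 : ∀ i ∈ s1.R, ε ≤ x i := fun i hi => hε i (Finset.mem_of_mem_erase hi)
  -- either the swap applies, or the remaining coordinates are small
  have key : (Real.exp (t - P.Λ * P.G ^ f.p - P.Λ) ≤ x a) ∨
      ∀ i ∈ s1.R, x i ≤ Fintype.card ι * Real.exp (t - P.C s1) := by
    rcases Relation.ReflTransGen.cases_head hr with he | ⟨s2, ⟨c, hc, t', b', hadm', rfl⟩, hr2⟩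
    · right
      intro i hi
      rw [he, hopt.2.1] at hi
      simp at hi
    · by_cases ht' : t' = t
      · left
        subst ht'
        have hb' : b' = true := by
          cases b'
          · have := hadm'.2.2 rfl _ (P.w_mem_lv s1 a)
            rw [hwa, sub_self, abs_zero] at this
            linarith [P.two_le_C s1]
          · rfl
        subst hb'
        have hca : c ≠ a := (Finset.mem_erase.1 hc).1
        have hc' : c ∈ s.R := (Finset.mem_erase.1 hc).2
        set s1' := P.next s c t' b with hs1'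
        have hswap : P.next s1 c t' true = P.next s1' a t' true :=
          P.next_swap s hca.symm ha hc' t' b
        have ha' : a ∈ s1'.R := by simp [hs1', next, ha, hca.symm]
        have hwc : s1'.w c = t' := by simp [hs1', next]
        have hadm2 : P.Adm s1' t' true := by
          refine ⟨?_, fun _ => hwc ▸ P.w_mem_lv s1' c, fun h => by simp at h⟩
          intro k hk
          by_cases e : k = c
          · rw [e, hwc]
          · have hk' : k ∉ s.R := by
              intro h'
              exact hk (by simp [hs1', next, e, h'])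
            have : s1'.w k = s.w k := by simp only [hs1', next]; rw [Function.update_of_ne e]
            rw [this]
            exact hadm.1 k hk'
        rw [hswap] at hr2
        have hr1' : P.Reach s1' f :=
          Relation.ReflTransGen.head ⟨a, ha', t', true, hadm2, rfl⟩ hr2
        have hopt' : P.Opt x ε s1' f := Opt.tail P hopt ⟨c, hc', t', b, hadm, rfl⟩ hr1'
        have hcard : s1'.R.card < n := by
          rw [← hn]
          exact Finset.card_erase_lt_of_mem hc'
        exact ih _ hcard s1' f rfl (P.good_next hs hc' hadm) hopt'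
          (fun i hi => hε i (Finset.mem_of_mem_erase hi)) a ha' t' true hadm2 hr2
      · right
        have := P.alpha hs1good hopt1 hε0 hε1 hc hadm' hr2 ha1 (by
          intro k hk
          rw [hwa]
          by_cases e : k = a
          · rw [e, hwa]
          · have hk' : k ∉ s.R := by
              intro h'
              exact hk (by simp [hs1, next, e, h'])
            have : s1.w k = s.w k := by simp only [hs1, next]; rw [Function.update_of_ne e]
            rw [this]
            exact hadm.1 k hk') (by rw [hwa]; exact ht')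
        rwa [hwa] at this
  rcases key with key | key
  · exact key
  by_contra hcon
  push Not at hcon
  set c := P.disc s b with hc
  set v := t - c - P.Λ with hv
  have hc0 : 0 ≤ c := P.disc_nonneg s b
  have hc1 : c ≤ P.Λ * P.G ^ s1.p := P.disc_le_next s a t b
  have hp1 : s1.p ≤ f.p := (P.reach_facts hr).2.2.1
  have hd1 : (1 : ℝ) ≤ Fintype.card ι := by
    have : 1 ≤ Fintype.card ι := Fintype.card_pos_iff.2 ⟨a⟩
    exact_mod_cast this
  have hxa : x a ≤ Real.exp v := by
    refine hcon.le.trans (Real.exp_le_exp.2 ?_)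
    linarith [P.rung_mono hp1]
  have hC1 : c + P.Λ ≤ P.C s1 := by
    have h1 : P.Λ * P.G ^ (s1.p + 1) ≤ P.C s1 :=
      P.rung_mono (by have : 0 < 2 ^ (s1.R.card - 1) := by positivity
                      omega)
    linarith [P.rung_succ s1.p, P.Λ_le_rung s1.p]
  have hall : ∀ i ∈ s.R, x i ≤ Fintype.card ι * Real.exp v := by
    intro i hi
    by_cases e : i = a
    · rw [e]
      nlinarith [Real.exp_pos v]
    · refine (key i (by simp [hs1, next, e, hi])).trans ?_
      have : Real.exp (t - P.C s1) ≤ Real.exp v := Real.exp_le_exp.2 (by linarith)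
      gcongr
  have hΛ := P.Λ_pos
  obtain ⟨u, b', hadm', hu1, hu2⟩ := P.near s (v := v) (fun j hj => by
    linarith [hadm.1 j hj])
  have hu3 : v - P.C s ≤ u := by
    rcases hu2 with h0 | h0
    · linarith [P.two_le_C s]
    · linarith [(abs_lt.1 h0.2).1]
  obtain ⟨f', h1, h2, h3, h4⟩ := P.fill ⟨a, ha⟩ hadm'
  have h5 := hopt.2.2 f' h1 h2
  have h6 := P.val_sub (x := x) hopt.1 h1
  have hCm : P.C s ≤ P.Cmax := P.C_le_Cmax hs
  have hcm : c ≤ P.Cmax := (P.disc_le_C s b).trans hCm
  have hΛm : P.Λ ≤ P.Cmax := P.Λ_le_rung _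
  have hle := P.le_first hr hopt.2.1
  have h7 : ∀ i ∈ s.R, -(3 * P.Cmax * (Fintype.card ι * Real.exp v)) ≤ (f'.w i - f.w i) * x i := by
    intro i hi
    rw [h3 i hi]
    have h8 : -(3 * P.Cmax) ≤ u - f.w i := by linarith [hle i hi]
    have h9 : 0 ≤ x i := by linarith [hε i hi]
    have h10 := hall i hi
    have h11 : 0 ≤ P.Cmax := by linarith
    nlinarith
  have h8 : -(Fintype.card ι * (3 * P.Cmax * (Fintype.card ι * Real.exp v))) ≤
      ∑ i ∈ s.R, (f'.w i - f.w i) * x i := by
    have h9 := Finset.card_nsmul_le_sum s.R _ _ h7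
    rw [nsmul_eq_mul] at h9
    have h10 : 0 ≤ 3 * P.Cmax * (Fintype.card ι * Real.exp v) := by
      have : 0 ≤ P.Cmax := by linarith
      positivity
    have := card_le_d s
    nlinarith
  have h9 : s.φ + Real.exp (t - c) ≤ f.φ := (P.reach_facts hr).2.2.2.1
  have h10 : (s.R.card : ℝ) * Real.exp (u - P.disc s b') ≤ Fintype.card ι * Real.exp v :=
    mul_le_mul (card_le_d s) (Real.exp_le_exp.2 hu1) (Real.exp_pos _).le (Nat.cast_nonneg _)
  have h11 : Real.exp (t - c) = Real.exp P.Λ * Real.exp v := by
    rw [← Real.exp_add]; congr 1; rw [hv]; ring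
  have h12 := P.exp_big
  have h13 : (3 * (Fintype.card ι : ℝ) ^ 2 * P.Cmax + Fintype.card ι + 1) * Real.exp v <
      Real.exp P.Λ * Real.exp v := mul_lt_mul_of_pos_right h12 (Real.exp_pos v)
  have h14 := hε a ha
  nlinarith

/-- the remaining coordinates are not much larger than the used levels -/
def Up (x : ι → ℝ) (s : St ι) : Prop :=
  ∀ i ∈ s.R, ∀ j, j ∉ s.R → x i ≤ Fintype.card ι * Real.exp (s.w j + P.Λ * P.G ^ s.p + 2)

theorem upper {x : ι → ℝ} {ε : ℝ} {s f : St ι} (hs : P.Good s) (hup : P.Up x s)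
    (h : P.Opt x ε s f) (hε0 : 0 < ε) (hε : ∀ i ∈ s.R, ε ≤ x i) {m : ι} (hm : m ∈ s.R) {t : ℝ}
    {b : Bool} (hadm : P.Adm s t b) (hr : P.Reach (P.next s m t b) f) :
    ∀ i ∈ s.R, x i ≤ Fintype.card ι * Real.exp (t + P.Λ * P.G ^ (P.next s m t b).p + 2) := by
  have hle := P.le_first hr h.2.1
  have hC := P.two_le_C s
  have hdisc := P.disc_le_next s m t b
  by_cases hv : ∀ j, j ∉ s.R → t + P.disc s b + 2 ≤ s.w j
  · obtain ⟨u, b', hadm', hu1, hu2⟩ := P.near s hv
    have hu : t + 2 ≤ u := by
      rcases hu2 with h0 | h0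
      · linarith [P.disc_nonneg s b]
      · have h1 := abs_lt.1 h0.2
        cases b
        · have h2 := hadm.2.2 rfl u h0.1
          have h3 : P.disc s false = 0 := by simp [disc]
          rw [h3] at h1
          rcases le_abs'.1 h2 with h4 | h4 <;> linarith
        · have h3 : P.disc s true = P.C s := by simp [disc]
          rw [h3] at h1
          linarith
    intro i hi
    refine (P.cmp h hε0 hε hle hadm' hu hu1 i hi).trans ?_
    gcongr
  · push Not at hv
    obtain ⟨j, hj, hjt⟩ := hv
    have h1 := hadm.1 j hj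
    have h2 : s.w j = t := by
      cases b
      · have h2 := hadm.2.2 rfl _ (P.w_mem_lv s j)
        have h3 : P.disc s false = 0 := by simp [disc]
        rw [abs_of_nonpos (by linarith)] at h2
        linarith
      · have h3 : P.disc s true = P.C s := by simp [disc]
        rcases P.lv_sep hs ⟨m, hm⟩ (hadm.2.1 rfl) (P.w_mem_lv s j) with h0 | h0
        · exact h0.symm
        · rw [abs_of_nonpos (by linarith)] at h0
          linarith [P.two_C_le_σ ⟨m, hm⟩]
    intro i hi
    refine (hup i hi j hj).trans ?_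
    have h3 : s.p ≤ (P.next s m t b).p := by simp [next]
    have h4 := P.rung_mono h3
    rw [h2]
    gcongr

/-- two-sided bounds for all coordinates -/
theorem err {x : ι → ℝ} {ε : ℝ} (hε0 : 0 < ε) : ∀ (n : ℕ) (s f : St ι), s.R.card = n →
    P.Good s → P.Up x s → P.Opt x ε s f → (∀ i ∈ s.R, ε ≤ x i) → ∀ i ∈ s.R,
    Real.exp (f.w i - P.Λ * P.G ^ f.p - P.Λ) ≤ x i ∧
      x i ≤ Fintype.card ι * Real.exp (f.w i + P.Λ * P.G ^ f.p + 2) := by
  intro n
  induction n with
  | zero =>
    intro s f hn _ _ _ _ i hi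
    rw [Finset.card_eq_zero.1 hn] at hi
    simp at hi
  | succ n ih =>
    intro s f hn hs hup hopt hε i hi
    rcases Relation.ReflTransGen.cases_head hopt.1 with he | ⟨s1, ⟨m, hm, t, b, hadm, rfl⟩, hr⟩
    · rw [he, hopt.2.1] at hi
      simp at hi
    · have hU := P.upper hs hup hopt hε0 hε hm hadm hr
      by_cases e : i = m
      · subst e
        rw [P.w_first hr]
        refine ⟨P.beta hε0 _ s f rfl hs hopt hε i hi t b hadm hr, (hU i hi).trans ?_⟩
        have := P.rung_mono (P.reach_facts hr).2.2.1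
        gcongr
      · refine ih (P.next s m t b) f (by simp [next, Finset.card_erase_of_mem hm, hn])
          (P.good_next hs hm hadm) ?_ (Opt.tail P hopt ⟨m, hm, t, b, hadm, rfl⟩ hr)
          (fun k hk => hε k (Finset.mem_of_mem_erase hk)) i (by simp [next, e, hi])
        intro k hk j hj
        refine (hU k (Finset.mem_of_mem_erase hk)).trans ?_
        have : t ≤ (P.next s m t b).w j := by
          by_cases e' : j = m
          · simp [next, e']
          · have hj' : j ∉ s.R := by
              intro h'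
              exact hj (by simp [next, e', h'])
            simp only [next]
            rw [Function.update_of_ne e']
            exact hadm.1 j hj'
        gcongr

end Par

end Crest.Agent.R92
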