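import Crest.Agent.R92.Flow

/-!
# Row 92: the barrier of a positive class
-/

set_option autoImplicit false

namespace Crest.Agent.R92

open Set Crest.AnalysisR.MassAction

variable {d : ℕ}

theorem exists_class_barrier {R : Network d} (hR : IsWeaklyReversible R)
    (k : (Fin d → ℕ) × (Fin d → ℕ) → ℝ) (hk : ∀ r ∈ R, 0 < k r) {c : Fin d → ℝ} (hc : Pos c) :
    ∃ (G : (Fin d → ℝ) → ℝ) (β ρ : ℝ), 0 < ρ ∧ Cvx G ∧ G c < 0 ∧
      (∀ y, Pos y → G y ≤ 0 → ∀ i, ρ ≤ y i ∧ y i ≤ β) ∧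
      (∀ (v : (Fin d → ℝ) → (Fin d → ℝ)) (x : ℝ → Fin d → ℝ), (∀ y, v y ∈ stoichSubspace R) →
        (∀ y : Fin d → ℝ, (∀ i, ρ ≤ y i ∧ y i ≤ β) → v y = field R k y) →
        IsForwardSolution v x → x 0 - c ∈ stoichSubspace R → Pos (x 0) → G (x 0) ≤ 0 →
        ∀ t, 0 ≤ t → Pos (x t) ∧ G (x t) ≤ 0 ∧ x t - c ∈ stoichSubspace R) ∧
      ∀ (x : ℝ → Fin d → ℝ) (lo hi : ℝ), 0 < lo → IsForwardSolution (field R k) x →
        (∀ t, 0 ≤ t → (∀ i, lo ≤ x t i ∧ x t i ≤ hi) ∧ x t - c ∈ stoichSubspace R) →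
        ∃ T, 0 ≤ T ∧ ∀ t, T ≤ t → G (x t) ≤ 0 := by
  obtain ⟨δ, hδ⟩ := uniform_rate hR k hk
  have hsub : ∀ (G : (Fin d → ℝ) → ℝ) (y w : Fin d → ℝ), IsSub G y w → 0 < G y →
      -G c ≤ w ⬝ᵥ (y - c) := by
    intro G y w hw hy
    have h1 := hw c hc
    rw [dotProduct_sub] at h1 ⊢
    linarith
  obtain ⟨G, μ, β, ρ, hμ, hρ, hcvx, hGc, habs, hbox, hcomp⟩ := exists_barrier (diffs R)
    (diffs_finite R) δ hc
    (fun G => ∀ (x : ℝ → Fin d → ℝ) (lo hi : ℝ), 0 < lo → IsForwardSolution (field R k) x →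
        (∀ t, 0 ≤ t → (∀ i, lo ≤ x t i ∧ x t i ≤ hi) ∧ x t - c ∈ stoichSubspace R) →
        ∃ T, 0 ≤ T ∧ ∀ t, T ≤ t → G (x t) ≤ 0)
    (fun _ _ _ _ _ _ => ⟨0, le_rfl, fun _ _ => by norm_num⟩) (by
      intro G G' hG hcvx hG'c hcomp x lo hi hlo hx hbox
      obtain ⟨T, hT, hGT⟩ := hG x lo hi hlo hx hbox
      obtain ⟨γ, hγ, hrate⟩ := hδ c lo hi (-G' c) hlo (by linarith)
      have hpos : ∀ t, 0 ≤ t → Pos (x t) := fun t ht i => hlo.trans_le ((hbox t ht).1 i).1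
      refine barrier_decay hcvx hx hpos hT hγ fun t ht hpos' => ?_
      obtain ⟨w, hw, hw'⟩ := hcomp (x t) (hpos t (hT.trans ht)) (hGT t ht) hpos'
      exact ⟨w, hw, hrate _ (hbox t (hT.trans ht)).1 (hbox t (hT.trans ht)).2 w hw'
        (hsub G' _ w hw hpos')⟩)
  refine ⟨G, β, ρ, hρ, hcvx, hGc, fun y hy hle => hbox y hy (by linarith), ?_, habs⟩
  intro v x hvS hv hx hx0 hpos0 hG0
  have hclass : ∀ t, 0 ≤ t → x t - c ∈ stoichSubspace R := by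
    intro t ht
    have h1 := (stoichSubspace R).add_mem (sol_sub_mem hx _ hvS ht) hx0
    rwa [sub_add_sub_cancel] at h1
  obtain ⟨γ, hγ, hrate⟩ := hδ c ρ β (-G c) hρ (by linarith)
  intro t ht
  have h1 := barrier_invariant hcvx hμ hρ (fun y hy hle i => (hbox y hy hle i).1) hx
    (fun s hs hp h1 h2 => by
      obtain ⟨w, hw, hw'⟩ := hcomp (x s) hp h1 h2
      refine ⟨w, hw, ?_⟩
      rw [hv _ (hbox _ hp h2)]
      have := hrate _ (hbox _ hp h2) (hclass s hs) w hw' (hsub G _ w hw h1)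
      linarith) hpos0 hG0 t ht
  exact ⟨h1.1, h1.2, hclass t ht⟩

end Crest.Agent.R92
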