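import Crest.Agent.R92.Key

/-!
# Row 92: the convex barrier, built by downward induction on the sets of small coordinates
-/

set_option autoImplicit false

namespace Crest.Agent.R92

open Finset

variable {ι : Type} [Fintype ι] [DecidableEq ι]

/-- the positive orthant -/
def Pos (x : ι → ℝ) : Prop := ∀ i, 0 < x i

/-- `w` is a subgradient of `G` at `x` on the positive orthant -/
def IsSub (G : (ι → ℝ) → ℝ) (x w : ι → ℝ) : Prop := ∀ z, Pos z → G x + w ⬝ᵥ (z - x) ≤ G z

/-- `G` has a subgradient at every point of the positive orthant -/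
def Cvx (G : (ι → ℝ) → ℝ) : Prop := ∀ x, Pos x → ∃ w, IsSub G x w

/-- `G` has a subgradient at `x` that is compatible with `log x` -/
def HasCompat (A : Set (ι → ℝ)) (δ : ℝ) (G : (ι → ℝ) → ℝ) (x : ι → ℝ) : Prop :=
  ∃ w, IsSub G x w ∧ Compat A δ w fun i => Real.log (x i)

/-- one stage of the construction -/
def Stage (A : Set (ι → ℝ)) (δ : ℝ) (c : ι → ℝ) (Abs : ((ι → ℝ) → ℝ) → Prop)
    (𝓘 : Finset (Finset ι)) : Prop :=
  ∃ (G : (ι → ℝ) → ℝ) (μ β ρ : ℝ), 0 < μ ∧ 0 < ρ ∧ Cvx G ∧ G c < 0 ∧ Abs G ∧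
    (∀ x, Pos x → G x ≤ μ → (∀ i, x i ≤ β) ∧ ∀ I ∈ 𝓘, ∃ i ∈ I, ρ ≤ x i) ∧
    ∀ x, Pos x → 0 < G x → G x ≤ μ → HasCompat A δ G x

theorem stage_base (A : Set (ι → ℝ)) (hA : A.Finite) (δ : ℝ) {c : ι → ℝ} (hc : Pos c)
    (Abs : ((ι → ℝ) → ℝ) → Prop) (h0 : Abs fun _ => -1)
    (hstep : ∀ G G', Abs G → Cvx G' → G' c < 0 →
      (∀ x, Pos x → G x ≤ 0 → 0 < G' x → HasCompat A δ G' x) → Abs G') :
    Stage A δ c Abs ∅ := by
  obtain ⟨C, hC0, V, hV⟩ := key_lemma A hA δ 0 (univ : Finset ι)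
  have hdom : ∀ x : ι → ℝ, Pos x → Dom univ x := fun x hx =>
    ⟨fun i _ => hx i, fun i _ j hj => absurd (mem_univ j) hj⟩
  set G : (ι → ℝ) → ℝ := fun x => V x - (V c + 1) with hG
  have hall : ∀ x, Pos x → HasCompat A δ G x := by
    intro x hx
    obtain ⟨w, φ, -, h2, h3, -, -, -, h7⟩ := hV x (hdom x hx)
    refine ⟨w, fun z hz => ?_, h7 _ (fun _ _ => rfl) (fun j hj => absurd (mem_univ j) hj)⟩
    have := h3 z (hdom z hz)
    simp only [hG, dotProduct_sub]
    linarith
  have hcvx : Cvx G := fun x hx => (hall x hx).imp fun w hw => hw.1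
  have hGc : G c < 0 := by simp [hG]
  set z : ι → ℝ := fun _ => Real.exp (C + 1) with hz
  have hzp : Pos z := fun _ => Real.exp_pos _
  obtain ⟨w, φ, -, -, h3, h4, -, -, -⟩ := hV z (hdom z hzp)
  refine ⟨G, 1, φ + V c + 2, 1, one_pos, one_pos, hcvx, hGc,
    hstep _ G h0 hcvx hGc (fun x hx _ _ => hall x hx), ?_, fun x hx _ _ => hall x hx⟩
  intro x hx hle
  refine ⟨fun i => ?_, by simp⟩
  have h5 := h3 x (hdom x hx)
  have h6 : ∀ k, x k ≤ w k * x k := by
    intro k
    have h7 := (abs_le.1 (h4 k (mem_univ k))).1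
    simp only [hz, Real.log_exp] at h7
    nlinarith [hx k]
  have h7 : x i ≤ w ⬝ᵥ x := by
    calc x i ≤ w i * x i := h6 i
      _ ≤ ∑ k, w k * x k := Finset.single_le_sum (f := fun k => w k * x k)
          (fun k _ => (hx k).le.trans (h6 k)) (mem_univ i)
  simp only [hG] at hle
  linarith

theorem stage_step (A : Set (ι → ℝ)) (hA : A.Finite) (δ : ℝ) {c : ι → ℝ} (hc : Pos c)
    (Abs : ((ι → ℝ) → ℝ) → Prop)
    (hstep : ∀ G G', Abs G → Cvx G' → G' c < 0 →
      (∀ x, Pos x → G x ≤ 0 → 0 < G' x → HasCompat A δ G' x) → Abs G')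
    {𝓘 : Finset (Finset ι)} (h : Stage A δ c Abs 𝓘) {I : Finset ι} (hI : I.Nonempty)
    (hup : ∀ j, j ∉ I → insert j I ∈ 𝓘) : Stage A δ c Abs (insert I 𝓘) := by
  obtain ⟨G, μ, β, ρ, hμ, hρ, hcvx, hGc, habs, hbox, hcomp⟩ := h
  obtain ⟨C, hC0, V, hV⟩ := key_lemma A hA δ (|Real.log ρ| + |Real.log β|) I
  set θ := Real.exp (-C - 1) with hθ
  have hθ0 : 0 < θ := Real.exp_pos _
  have hθ1 : θ ≤ 1 := Real.exp_le_one_iff.2 (by linarith)
  set hat : (ι → ℝ) → (ι → ℝ) := fun x i => min (x i) θ with hhat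
  have hdom : ∀ x, Pos x → Dom I (hat x) := fun x hx =>
    ⟨fun i _ => lt_min (hx i) hθ0, fun i _ _ _ => (min_le_right _ _).trans hθ1⟩
  have hhat0 : ∀ x, Pos x → ∀ i, 0 < hat x i := fun x hx i => lt_min (hx i) hθ0
  obtain ⟨η0, hη0, -, hη0c⟩ := exists_pos_lb (Set.finite_univ (α := ι)) c (fun i _ => hc i)
  set η := min (min θ ρ) η0 / 2 with hη
  have hm0 : 0 < min (min θ ρ) η0 := lt_min (lt_min hθ0 hρ) hη0
  have hηpos : 0 < η := by positivity
  have hηθ : η < θ := by
    have := (min_le_left (min θ ρ) η0).trans (min_le_left θ ρ); linarith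
  have hηρ : η < ρ := by
    have := (min_le_left (min θ ρ) η0).trans (min_le_right θ ρ); linarith
  have hηc : ∀ i, η < c i := by
    intro i
    have := (min_le_right (min θ ρ) η0).trans (hη0c i trivial); linarith
  set U : (ι → ℝ) → ℝ := fun x => V (hat x) with hU
  have hdot : ∀ w : ι → ℝ, (∀ j, j ∉ I → w j = 0) → ∀ x : ι → ℝ,
      w ⬝ᵥ x = ∑ i ∈ I, w i * x i := by
    intro w hw x
    rw [dotProduct]
    symm
    apply Finset.sum_subset (Finset.subset_univ _)
    intro i _ hi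
    rw [hw i hi, zero_mul]
  have hneg : ∀ x, Pos x → ∀ w : ι → ℝ, (∀ i ∈ I, |w i - Real.log (hat x i)| ≤ C) →
      ∀ i ∈ I, w i ≤ -1 := by
    intro x hx w hw i hi
    have h1 := (abs_le.1 (hw i hi)).2
    have h2 : Real.log (hat x i) ≤ Real.log θ :=
      Real.log_le_log (hhat0 x hx i) (min_le_right _ _)
    rw [hθ, Real.log_exp] at h2
    linarith
  -- large coordinates make the new constraint slack
  have hF2 : ∀ x, Pos x → ∀ i ∈ I, U x ≤ -hat x i := by
    intro x hx i hi
    obtain ⟨w, φ, h1, h2, -, h4, h5, -, -⟩ := hV (hat x) (hdom x hx)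
    have h6 : ∑ k ∈ I, w k * hat x k ≤ -∑ k ∈ I, hat x k := by
      rw [← Finset.sum_neg_distrib]
      refine Finset.sum_le_sum fun k hk => ?_
      nlinarith [hneg x hx w h4 k hk, hhat0 x hx k]
    have h7 : hat x i ≤ ∑ k ∈ I, hat x k :=
      Finset.single_le_sum (f := fun k => hat x k) (fun k _ => (hhat0 x hx k).le) hi
    simp only [hU]
    rw [h2, hdot w h1]
    linarith
  have hUcvx : Cvx U := by
    intro x hx
    obtain ⟨w, φ, h1, h2, h3, h4, -, -, -⟩ := hV (hat x) (hdom x hx)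
    refine ⟨fun k => if x k ≤ θ then w k else 0, fun z hz => ?_⟩
    have h5 := h3 _ (hdom z hz)
    have h6 : (fun k => if x k ≤ θ then w k else 0) ⬝ᵥ (z - x) ≤ w ⬝ᵥ (hat z - hat x) := by
      rw [hdot w h1, hdot _ (fun j hj => by simp [h1 j hj])]
      refine Finset.sum_le_sum fun k hk => ?_
      have h7 := hneg x hx w h4 k hk
      simp only [hhat, Pi.sub_apply]
      split_ifs with h8
      · rw [min_eq_left h8]
        nlinarith [min_le_left (z k) θ]
      · rw [min_eq_right (le_of_not_ge h8)]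
        nlinarith [min_le_right (z k) θ]
    rw [dotProduct_sub w] at h6
    simp only [hU]
    linarith
  -- all coordinates of `I` tiny violates the new constraint
  obtain ⟨ρ1, hρ1, hF1⟩ : ∃ ρ1 > 0, ∀ x, Pos x → (∀ i ∈ I, x i < ρ1) → -(η / 2) < U x := by
    have hcont : ContinuousAt (fun t : ℝ => t * Real.log t - 2 * C * t) 0 :=
      (Real.continuous_mul_log.sub (by fun_prop)).continuousAt
    have hd : (0 : ℝ) < I.card + 1 := by positivity
    obtain ⟨r, hr0, hr⟩ := Metric.continuousAt_iff.1 hcont (η / 2 / (I.card + 1)) (by positivity)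
    refine ⟨r, hr0, fun x hx hsmall => ?_⟩
    obtain ⟨w, φ, h1, h2, -, h4, -, h6, -⟩ := hV (hat x) (hdom x hx)
    have h7 : ∀ k ∈ I, -(η / 2 / (I.card + 1)) ≤ w k * hat x k - C * hat x k := by
      intro k hk
      have h8 : dist (hat x k) 0 < r := by
        rw [Real.dist_eq, sub_zero, abs_of_pos (hhat0 x hx k)]
        exact (min_le_left _ _).trans_lt (hsmall k hk)
      have h9 := hr h8
      simp only [zero_mul, mul_zero, sub_zero, Real.dist_eq] at h9
      have h10 := (abs_lt.1 h9).1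
      have h11 := (abs_le.1 (h4 k hk)).1
      nlinarith [hhat0 x hx k]
    have h8 := Finset.card_nsmul_le_sum I _ _ h7
    rw [nsmul_eq_mul, Finset.sum_sub_distrib, ← Finset.mul_sum] at h8
    have h9 : (I.card : ℝ) * (η / 2 / (I.card + 1)) < η / 2 := by
      rw [mul_div_assoc', div_lt_iff₀ hd]
      nlinarith
    simp only [hU]
    rw [h2, hdot w h1]
    linarith
  set G' : (ι → ℝ) → ℝ := fun x => max (G x) (U x + η) with hG'
  have hsubG : ∀ x w, U x + η ≤ G x → IsSub G x w → IsSub G' x w := by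
    intro x w h1 h2 z hz
    have := h2 z hz
    simp only [hG']
    rw [max_eq_left h1]
    exact this.trans (le_max_left _ _)
  have hsubU : ∀ x w, G x ≤ U x + η → IsSub U x w → IsSub G' x w := by
    intro x w h1 h2 z hz
    have := h2 z hz
    simp only [hG']
    rw [max_eq_right h1]
    exact le_trans (by linarith) (le_max_right _ _)
  have hcvx' : Cvx G' := by
    intro x hx
    rcases le_total (U x + η) (G x) with h1 | h1
    · obtain ⟨w, hw⟩ := hcvx x hx
      exact ⟨w, hsubG x w h1 hw⟩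
    · obtain ⟨w, hw⟩ := hUcvx x hx
      exact ⟨w, hsubU x w h1 hw⟩
  have hG'c : G' c < 0 := by
    obtain ⟨i, hi⟩ := hI
    have h1 := hF2 c hc i hi
    have h2 : η < hat c i := lt_min (hηc i) hηθ
    exact max_lt hGc (by linarith)
  have hmain : ∀ x, Pos x → G x ≤ μ → 0 < G' x → HasCompat A δ G' x := by
    intro x hx hle hpos
    rcases le_total (U x + η) (G x) with h1 | h1
    · have h2 : G' x = G x := max_eq_left h1
      obtain ⟨w, hw, hw'⟩ := hcomp x hx (h2 ▸ hpos) hle
      exact ⟨w, hsubG x w h1 hw, hw'⟩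
    · have h2 : G' x = U x + η := max_eq_right h1
      have hsm : ∀ i ∈ I, x i < η := by
        intro i hi
        have h3 := hF2 x hx i hi
        have h4 : hat x i < η := by linarith
        rcases min_lt_iff.1 h4 with h5 | h5
        · exact h5
        · linarith
      have heq : ∀ i ∈ I, hat x i = x i := fun i hi => min_eq_left (by linarith [hsm i hi])
      obtain ⟨w, φ, h3, h4, h5, h6, -, -, h9⟩ := hV (hat x) (hdom x hx)
      refine ⟨w, hsubU x w h1 fun z hz => ?_, h9 _ (fun i hi => by rw [heq i hi]) ?_⟩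
      · have h10 := h5 _ (hdom z hz)
        have h11 : w ⬝ᵥ (z - x) ≤ w ⬝ᵥ (hat z - hat x) := by
          rw [hdot w h3, hdot w h3]
          refine Finset.sum_le_sum fun k hk => ?_
          have h7 := hneg x hx w h6 k hk
          simp only [Pi.sub_apply]
          rw [heq k hk]
          have : hat z k ≤ z k := min_le_left _ _
          nlinarith
        rw [dotProduct_sub w (hat z)] at h11
        simp only [hU]
        linarith
      · intro j hj
        obtain ⟨hb1, hb2⟩ := hbox x hx hle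
        obtain ⟨i, hi, hρi⟩ := hb2 _ (hup j hj)
        have hij : i = j := by
          rcases Finset.mem_insert.1 hi with e | e
          · exact e
          · linarith [hsm i e]
        subst hij
        have h10 := Real.log_le_log hρ hρi
        have h11 := Real.log_le_log (hx i) (hb1 i)
        rw [abs_le]
        constructor <;> linarith [le_abs_self (Real.log β), neg_abs_le (Real.log ρ),
          abs_nonneg (Real.log β), abs_nonneg (Real.log ρ)]
  refine ⟨G', min μ (η / 2), β, min ρ ρ1, lt_min hμ (by positivity), lt_min hρ hρ1, hcvx', hG'c,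
    hstep G G' habs hcvx' hG'c (fun x hx h1 h2 => hmain x hx (by linarith) h2), ?_, ?_⟩
  · intro x hx hle
    have h1 : G x ≤ μ := ((le_max_left _ _).trans hle).trans (min_le_left _ _)
    have h2 : U x + η ≤ η / 2 := ((le_max_right _ _).trans hle).trans (min_le_right _ _)
    obtain ⟨hb1, hb2⟩ := hbox x hx h1
    refine ⟨hb1, fun J hJ => ?_⟩
    rcases Finset.mem_insert.1 hJ with e | e
    · subst e
      by_contra hcon
      push Not at hcon
      have h3 : ∃ i ∈ J, ρ1 ≤ x i := by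
        by_contra h4
        push Not at h4
        linarith [hF1 x hx h4]
      obtain ⟨i, hi, h4⟩ := h3
      linarith [hcon i hi, min_le_right ρ ρ1]
    · obtain ⟨i, hi, h3⟩ := hb2 J e
      exact ⟨i, hi, (min_le_left _ _).trans h3⟩
  · intro x hx hpos hle
    exact hmain x hx (((le_max_left _ _).trans hle).trans (min_le_left _ _)) hpos

theorem exists_barrier (A : Set (ι → ℝ)) (hA : A.Finite) (δ : ℝ) {c : ι → ℝ} (hc : Pos c)
    (Abs : ((ι → ℝ) → ℝ) → Prop) (h0 : Abs fun _ => -1)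
    (hstep : ∀ G G', Abs G → Cvx G' → G' c < 0 →
      (∀ x, Pos x → G x ≤ 0 → 0 < G' x → HasCompat A δ G' x) → Abs G') :
    ∃ (G : (ι → ℝ) → ℝ) (μ β ρ : ℝ), 0 < μ ∧ 0 < ρ ∧ Cvx G ∧ G c < 0 ∧ Abs G ∧
      (∀ x, Pos x → G x ≤ μ → ∀ i, ρ ≤ x i ∧ x i ≤ β) ∧
      ∀ x, Pos x → 0 < G x → G x ≤ μ → HasCompat A δ G x := by
  have key : ∀ 𝓘 : Finset (Finset ι), (∀ I ∈ 𝓘, I.Nonempty ∧ ∀ j, insert j I ∈ 𝓘) →
      Stage A δ c Abs 𝓘 := by
    intro 𝓘
    induction 𝓘 using Finset.induction_on_min_value (f := fun I : Finset ι => I.card) with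
    | empty => exact fun _ => stage_base A hA δ hc Abs h0 hstep
    | insert I 𝓘 hI hmin ih =>
      intro hyp
      have hI' := hyp I (mem_insert_self _ _)
      refine stage_step A hA δ hc Abs hstep (ih fun J hJ => ?_) hI'.1 fun j hj => ?_
      · have hJ' := hyp J (mem_insert_of_mem hJ)
        refine ⟨hJ'.1, fun j => ?_⟩
        rcases Finset.mem_insert.1 (hJ'.2 j) with e | e
        · exfalso
          by_cases hj : j ∈ J
          · rw [Finset.insert_eq_of_mem hj] at e
            exact hI (e ▸ hJ)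
          · have h1 := hmin J hJ
            rw [← e, Finset.card_insert_of_notMem hj] at h1
            omega
        · exact e
      · rcases Finset.mem_insert.1 (hI'.2 j) with e | e
        · exact absurd (e ▸ mem_insert_self j I) hj
        · exact e
  obtain ⟨G, μ, β, ρ, h1, h2, h3, h4, h5, h6, h7⟩ :=
    key (univ.filter fun I : Finset ι => I.Nonempty) (fun I hI => by
      simp only [mem_filter, mem_univ, true_and] at hI ⊢
      exact ⟨hI, fun j => insert_nonempty _ _⟩)
  refine ⟨G, μ, β, ρ, h1, h2, h3, h4, h5, fun x hx hle i => ?_, h7⟩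
  obtain ⟨h8, h9⟩ := h6 x hx hle
  obtain ⟨k, hk, h10⟩ := h9 {i} (by simp)
  rw [Finset.mem_singleton.1 hk] at h10
  exact ⟨h10, h8 i⟩

omit [DecidableEq ι] in
theorem convex_pos : Convex ℝ {x : ι → ℝ | Pos x} := by
  intro x hx y hy a b ha hb hab i
  have h1 := hx i
  have h2 := hy i
  simp only [Pi.add_apply, Pi.smul_apply, smul_eq_mul]
  rcases ha.eq_or_lt with e | e
  · subst e; simp at hab; subst hab; simpa using h2
  · positivity

omit [DecidableEq ι] in
theorem isOpen_pos : IsOpen {x : ι → ℝ | Pos x} := by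
  have : {x : ι → ℝ | Pos x} = ⋂ i, {x : ι → ℝ | 0 < x i} := by
    ext x; simp [Pos]
  rw [this]
  exact isOpen_iInter_of_finite fun i => isOpen_lt continuous_const (continuous_apply i)

omit [DecidableEq ι] in
theorem Cvx.convexOn {G : (ι → ℝ) → ℝ} (h : Cvx G) : ConvexOn ℝ {x : ι → ℝ | Pos x} G := by
  refine ⟨convex_pos, fun x hx y hy a b ha hb hab => ?_⟩
  obtain ⟨w, hw⟩ := h _ (convex_pos hx hy ha hb hab)
  have h1 := hw x hx
  have h2 := hw y hy
  have h3 : a * (w ⬝ᵥ (x - (a • x + b • y))) + b * (w ⬝ᵥ (y - (a • x + b • y))) = 0 := by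
    have hb' : b = 1 - a := by linarith
    simp only [dotProduct_sub, dotProduct_add, dotProduct_smul, smul_eq_mul, hb']
    ring
  have h4 : G (a • x + b • y) = a * G (a • x + b • y) + b * G (a • x + b • y) := by
    rw [← add_mul, hab, one_mul]
  simp only [smul_eq_mul]
  nlinarith [mul_le_mul_of_nonneg_left h1 ha, mul_le_mul_of_nonneg_left h2 hb]

omit [DecidableEq ι] in
theorem Cvx.continuousOn {G : (ι → ℝ) → ℝ} (h : Cvx G) : ContinuousOn G {x : ι → ℝ | Pos x} :=
  h.convexOn.continuousOn isOpen_pos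

end Crest.Agent.R92
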