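import Crest.Prelude.Def_MassAction
import Crest.Agent.R92.Stage

/-!
# Row 92: compatible normals point against the mass-action field
-/

set_option autoImplicit false

namespace Crest.Agent.R92

open Finset Crest.AnalysisR.MassAction

variable {d : ℕ}

/-- a complex as a real vector -/
def cx (y : Fin d → ℕ) : Fin d → ℝ := fun i => (y i : ℝ)

/-- differences of source complexes -/
def diffs (R : Network d) : Set (Fin d → ℝ) := {a | ∃ r ∈ R, ∃ r' ∈ R, a = cx r'.1 - cx r.1}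

theorem diffs_finite (R : Network d) : (diffs R).Finite := by
  have h := (R.finite_toSet.prod R.finite_toSet).image fun q => cx q.2.1 - cx q.1.1
  refine h.subset ?_
  rintro a ⟨r, hr, r', hr', rfl⟩
  exact ⟨(r, r'), ⟨hr, hr'⟩, rfl⟩

/-- decrease of the linear form `w` along a reaction -/
noncomputable def drop (w : Fin d → ℝ) (r : (Fin d → ℕ) × (Fin d → ℕ)) : ℝ :=
  max (cx r.1 ⬝ᵥ w - cx r.2 ⬝ᵥ w) 0

theorem drop_nonneg (w : Fin d → ℝ) (r : (Fin d → ℕ) × (Fin d → ℕ)) : 0 ≤ drop w r :=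
  le_max_right _ _

theorem path_bound {R : Network d} {a b : Fin d → ℕ}
    (h : Relation.ReflTransGen (fun a b => (a, b) ∈ R) a b) :
    ∃ m : ℕ, ∀ (ψ : (Fin d → ℕ) → ℝ) (c D : ℝ), 0 ≤ D →
      (∀ r ∈ R, c < ψ r.1 → ψ r.1 - ψ r.2 ≤ D) → ψ b ≤ c → ψ a - c ≤ m * D := by
  induction h using Relation.ReflTransGen.head_induction_on with
  | refl => exact ⟨0, fun ψ c D _ _ h => by simpa using h⟩
  | @head a a' hab _ ih =>
    obtain ⟨m, hm⟩ := ih
    refine ⟨m + 1, fun ψ c D hD h1 h2 => ?_⟩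
    push_cast
    by_cases h3 : c < ψ a
    · have h4 := h1 (a, a') hab h3
      have h5 := hm ψ c D hD h1 h2
      simp only at h4
      linarith
    · have : 0 ≤ (m : ℝ) * D := by positivity
      linarith

theorem exists_path_const {R : Network d} (hR : IsWeaklyReversible R) :
    ∃ M : ℝ, 0 ≤ M ∧ ∀ (w : Fin d → ℝ), ∀ r ∈ R, cx r.2 ⬝ᵥ w - cx r.1 ⬝ᵥ w ≤
      M * ∑ r' ∈ R.filter (fun r' => cx r.1 ⬝ᵥ w < cx r'.1 ⬝ᵥ w), drop w r' := by
  choose! m hm using fun r (hr : r ∈ R) => path_bound (hR r hr)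
  refine ⟨(R.sup m : ℕ), Nat.cast_nonneg _, fun w r hr => ?_⟩
  have hD : 0 ≤ ∑ r' ∈ R.filter (fun r' => cx r.1 ⬝ᵥ w < cx r'.1 ⬝ᵥ w), drop w r' :=
    Finset.sum_nonneg fun _ _ => drop_nonneg _ _
  have h1 := hm r hr (fun y => cx y ⬝ᵥ w) (cx r.1 ⬝ᵥ w) _ hD (fun r' hr' hlt =>
    (le_max_left _ _).trans (Finset.single_le_sum (f := fun r' => drop w r')
      (fun _ _ => drop_nonneg _ _) (Finset.mem_filter.2 ⟨hr', hlt⟩))) le_rfl
  refine h1.trans (mul_le_mul_of_nonneg_right ?_ hD)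
  exact_mod_cast Finset.le_sup (f := m) hr

theorem mono_eq_exp {x : Fin d → ℝ} (hx : Pos x) (y : Fin d → ℕ) :
    ∏ i, x i ^ y i = Real.exp (cx y ⬝ᵥ fun i => Real.log (x i)) := by
  rw [dotProduct, Real.exp_sum]
  refine Finset.prod_congr rfl fun i _ => ?_
  rw [cx, ← Real.log_pow, Real.exp_log (pow_pos (hx i) _)]

theorem reactionVector_eq (r : (Fin d → ℕ) × (Fin d → ℕ)) :
    reactionVector r = cx r.2 - cx r.1 := rfl

theorem dot_field (R : Network d) (k : (Fin d → ℕ) × (Fin d → ℕ) → ℝ) (x w : Fin d → ℝ) :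
    w ⬝ᵥ field R k x = ∑ r ∈ R, (k r * ∏ i, x i ^ r.1 i) * (cx r.2 ⬝ᵥ w - cx r.1 ⬝ᵥ w) := by
  rw [field, dotProduct_sum]
  refine Finset.sum_congr rfl fun r _ => ?_
  rw [dotProduct_smul, smul_eq_mul, reactionVector_eq, dotProduct_sub, dotProduct_comm w,
    dotProduct_comm w]

theorem tier_lemma {R : Network d} (hR : IsWeaklyReversible R)
    (k : (Fin d → ℕ) × (Fin d → ℕ) → ℝ) (hk : ∀ r ∈ R, 0 < k r) :
    ∃ δ : ℝ, ∀ x, Pos x → ∀ w, Compat (diffs R) δ w (fun i => Real.log (x i)) →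
      w ⬝ᵥ field R k x ≤ -(1 / 2) * ∑ r ∈ R, (k r * ∏ i, x i ^ r.1 i) * drop w r := by
  obtain ⟨M, hM0, hM⟩ := exists_path_const hR
  obtain ⟨κ, hκ0, -, hκ⟩ := exists_pos_lb R.finite_toSet k hk
  set L : ℝ := (∑ r ∈ R, k r) / κ with hL
  have hL0 : 0 ≤ L := div_nonneg (Finset.sum_nonneg fun r hr => (hk r hr).le) hκ0.le
  have hkL : ∀ r ∈ R, ∀ r' ∈ R, k r ≤ L * k r' := by
    intro r hr r' hr'
    have h1 : k r ≤ ∑ r ∈ R, k r := Finset.single_le_sum (fun r hr => (hk r hr).le) hr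
    calc k r ≤ L * κ := by rw [hL, div_mul_cancel₀ _ hκ0.ne']; exact h1
      _ ≤ L * k r' := mul_le_mul_of_nonneg_left (hκ r' hr') hL0
  set E : ℝ := 2 * R.card * M * L + 1 with hE
  have hE0 : 0 < E := by positivity
  refine ⟨Real.log E, fun x hx w hw => ?_⟩
  set W := ∑ r ∈ R, (k r * ∏ i, x i ^ r.1 i) * drop w r with hW
  have hmono : ∀ y : Fin d → ℕ, 0 < ∏ i, x i ^ y i := fun y =>
    Finset.prod_pos fun i _ => pow_pos (hx i) _
  have hterm : ∀ r ∈ R, 0 ≤ (k r * ∏ i, x i ^ r.1 i) * drop w r := fun r hr =>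
    mul_nonneg (mul_nonneg (hk r hr).le (hmono _).le) (drop_nonneg _ _)
  have hW0 : 0 ≤ W := Finset.sum_nonneg hterm
  have h1 : ∀ r ∈ R, (k r * ∏ i, x i ^ r.1 i) * (cx r.2 ⬝ᵥ w - cx r.1 ⬝ᵥ w) ≤
      M * L / E * W - (k r * ∏ i, x i ^ r.1 i) * drop w r := by
    intro r hr
    have hkm : 0 < k r * ∏ i, x i ^ r.1 i := mul_pos (hk r hr) (hmono _)
    have hMLW : 0 ≤ M * L / E * W := by positivity
    rcases le_total (cx r.2 ⬝ᵥ w) (cx r.1 ⬝ᵥ w) with h | h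
    · have : drop w r = cx r.1 ⬝ᵥ w - cx r.2 ⬝ᵥ w := max_eq_left (by linarith)
      rw [this]
      linarith
    · have h0 : drop w r = 0 := max_eq_right (by linarith)
      rw [h0, mul_zero, sub_zero]
      have h2 : (k r * ∏ i, x i ^ r.1 i) *
          ∑ r' ∈ R.filter (fun r' => cx r.1 ⬝ᵥ w < cx r'.1 ⬝ᵥ w), drop w r' ≤ L / E * W := by
        rw [Finset.mul_sum, hW, Finset.mul_sum]
        refine le_trans (Finset.sum_le_sum fun r' hr' => ?_)
          (Finset.sum_le_sum_of_subset_of_nonneg (Finset.filter_subset _ R)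
            fun r' hr' _ => mul_nonneg (by positivity) (hterm r' hr'))
        obtain ⟨hr'R, hlt⟩ := Finset.mem_filter.1 hr'
        have h3 := hw (cx r'.1 - cx r.1) ⟨r, hr, r', hr'R, rfl⟩ (by
          rw [sub_dotProduct]; linarith)
        rw [sub_dotProduct] at h3
        have h4 : E * ∏ i, x i ^ r.1 i ≤ ∏ i, x i ^ r'.1 i := by
          rw [mono_eq_exp hx, mono_eq_exp hx, ← Real.exp_log hE0, ← Real.exp_add]
          exact Real.exp_le_exp.2 (by linarith)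
        have h5 : ∏ i, x i ^ r.1 i ≤ (∏ i, x i ^ r'.1 i) / E := by
          rw [le_div_iff₀ hE0]; linarith
        rw [← mul_assoc]
        apply mul_le_mul_of_nonneg_right _ (drop_nonneg _ _)
        calc k r * ∏ i, x i ^ r.1 i ≤ (L * k r') * ((∏ i, x i ^ r'.1 i) / E) :=
              mul_le_mul (hkL r hr r' hr'R) h5 (hmono _).le
                (mul_nonneg hL0 (hk r' hr'R).le)
          _ = L / E * (k r' * ∏ i, x i ^ r'.1 i) := by ring
      calc _ ≤ (k r * ∏ i, x i ^ r.1 i) * (M * ∑ r' ∈ R.filter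
              (fun r' => cx r.1 ⬝ᵥ w < cx r'.1 ⬝ᵥ w), drop w r') :=
            mul_le_mul_of_nonneg_left (hM w r hr) hkm.le
        _ = M * ((k r * ∏ i, x i ^ r.1 i) * ∑ r' ∈ R.filter
              (fun r' => cx r.1 ⬝ᵥ w < cx r'.1 ⬝ᵥ w), drop w r') := by ring
        _ ≤ M * (L / E * W) := mul_le_mul_of_nonneg_left h2 hM0
        _ = M * L / E * W := by ring
  rw [dot_field]
  refine (Finset.sum_le_sum h1).trans ?_
  rw [Finset.sum_sub_distrib, Finset.sum_const, nsmul_eq_mul, ← hW]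
  have h2 : (R.card : ℝ) * (M * L / E) ≤ 1 / 2 := by
    rw [mul_div_assoc', div_le_iff₀ hE0, hE]
    nlinarith
  nlinarith

theorem exists_coeff_bound (R : Network d) :
    ∃ Γ : ℝ, 0 ≤ Γ ∧ ∀ v ∈ stoichSubspace R, ∀ (w : Fin d → ℝ) (E : ℝ), 0 ≤ E →
      (∀ r ∈ R, |w ⬝ᵥ reactionVector r| ≤ E) → w ⬝ᵥ v ≤ Γ * ‖v‖ * E := by
  set L : (R → ℝ) →ₗ[ℝ] (Fin d → ℝ) :=
    Fintype.linearCombination ℝ (fun r : R => reactionVector r.1) with hL
  have hrange : LinearMap.range L = stoichSubspace R := by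
    rw [hL, Fintype.range_linearCombination, stoichSubspace]
    congr 1
    ext v
    simp
  obtain ⟨g, hg⟩ := L.rangeRestrict.exists_rightInverse_of_surjective L.range_rangeRestrict
  set g' := LinearMap.toContinuousLinearMap g with hg'
  refine ⟨R.card * ‖g'‖, by positivity, fun v hv w E hE hw => ?_⟩
  have hv' : v ∈ LinearMap.range L := hrange ▸ hv
  have h1 : L (g ⟨v, hv'⟩) = v := by
    have := LinearMap.congr_fun hg ⟨v, hv'⟩
    simpa using congrArg Subtype.val this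
  have h2 : ‖g ⟨v, hv'⟩‖ ≤ ‖g'‖ * ‖v‖ := g'.le_opNorm ⟨v, hv'⟩
  have h3 : w ⬝ᵥ v = ∑ r : R, g ⟨v, hv'⟩ r * (w ⬝ᵥ reactionVector r.1) := by
    have h5 : ∀ l : R → ℝ, w ⬝ᵥ L l = ∑ r : R, l r * (w ⬝ᵥ reactionVector r.1) := by
      intro l
      rw [hL, Fintype.linearCombination_apply, dotProduct_sum]
      simp
    rw [← h5, h1]
  rw [h3]
  have h4 : ∀ r : R, g ⟨v, hv'⟩ r * (w ⬝ᵥ reactionVector r.1) ≤ ‖g'‖ * ‖v‖ * E := by
    intro r
    refine (le_abs_self _).trans ?_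
    rw [abs_mul]
    exact mul_le_mul ((norm_le_pi_norm (g ⟨v, hv'⟩) r).trans h2) (hw r.1 r.2) (abs_nonneg _)
      (by positivity)
  refine (Finset.sum_le_sum fun r _ => h4 r).trans ?_
  rw [Finset.sum_const, nsmul_eq_mul, Finset.card_univ, Fintype.card_coe]
  apply le_of_eq
  ring

/-- uniform rate of decrease on boxes -/
theorem uniform_rate {R : Network d} (hR : IsWeaklyReversible R)
    (k : (Fin d → ℕ) × (Fin d → ℕ) → ℝ) (hk : ∀ r ∈ R, 0 < k r) :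
    ∃ δ : ℝ, ∀ (c : Fin d → ℝ) (lo hi g : ℝ), 0 < lo → 0 < g → ∃ γ : ℝ, 0 < γ ∧
      ∀ x : Fin d → ℝ, (∀ i, lo ≤ x i ∧ x i ≤ hi) → x - c ∈ stoichSubspace R →
        ∀ w, Compat (diffs R) δ w (fun i => Real.log (x i)) → g ≤ w ⬝ᵥ (x - c) →
          w ⬝ᵥ field R k x ≤ -γ := by
  obtain ⟨δ, hδ⟩ := tier_lemma hR k hk
  obtain ⟨M, hM0, hM⟩ := exists_path_const hR
  obtain ⟨Γ, hΓ0, hΓ⟩ := exists_coeff_bound R
  refine ⟨δ, fun c lo hi g hlo hg => ?_⟩
  obtain ⟨κ, hκ0, -, hκ⟩ := exists_pos_lb R.finite_toSet (fun r => k r * ∏ i, lo ^ r.1 i)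
    (fun r hr => mul_pos (hk r hr) (Finset.prod_pos fun i _ => pow_pos hlo _))
  set H : ℝ := Γ * (|hi| + ‖c‖) * (M + 1) + 1 with hH
  have hH0 : 0 < H := by positivity
  refine ⟨κ / 2 * (g / H), by positivity, fun x hx hxc w hw hgw => ?_⟩
  have hxp : Pos x := fun i => hlo.trans_le (hx i).1
  set D := ∑ r ∈ R, drop w r with hD
  have hD0 : 0 ≤ D := Finset.sum_nonneg fun _ _ => drop_nonneg _ _
  have h1 : ∀ r ∈ R, |w ⬝ᵥ reactionVector r| ≤ (M + 1) * D := by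
    intro r hr
    rw [reactionVector_eq, dotProduct_sub, dotProduct_comm w, dotProduct_comm w, abs_le]
    have h2 : drop w r ≤ D :=
      Finset.single_le_sum (f := fun r => drop w r) (fun _ _ => drop_nonneg _ _) hr
    have h3 : cx r.1 ⬝ᵥ w - cx r.2 ⬝ᵥ w ≤ drop w r := le_max_left _ _
    have h4 := hM w r hr
    have h5 : ∑ r' ∈ R.filter (fun r' => cx r.1 ⬝ᵥ w < cx r'.1 ⬝ᵥ w), drop w r' ≤ D :=
      Finset.sum_le_sum_of_subset_of_nonneg (Finset.filter_subset _ R)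
        fun _ _ _ => drop_nonneg _ _
    have h6 := mul_le_mul_of_nonneg_left h5 hM0
    have h7 : 0 ≤ M * D := by positivity
    constructor <;> nlinarith
  have h2 := hΓ _ hxc w _ (by positivity) h1
  have h3 : ‖x - c‖ ≤ |hi| + ‖c‖ := by
    refine (norm_sub_le _ _).trans (add_le_add_left ?_ _)
    refine (pi_norm_le_iff_of_nonneg (abs_nonneg _)).2 fun i => ?_
    rw [Real.norm_eq_abs, abs_of_pos (hxp i)]
    exact (hx i).2.trans (le_abs_self _)
  have h4 : g ≤ H * D := by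
    calc g ≤ Γ * ‖x - c‖ * ((M + 1) * D) := hgw.trans h2
      _ ≤ Γ * (|hi| + ‖c‖) * ((M + 1) * D) := by gcongr
      _ ≤ H * D := by rw [hH]; nlinarith
  have h5 : g / H ≤ D := by rw [div_le_iff₀ hH0]; linarith
  have h6 : κ * D ≤ ∑ r ∈ R, (k r * ∏ i, x i ^ r.1 i) * drop w r := by
    rw [hD, Finset.mul_sum]
    refine Finset.sum_le_sum fun r hr => mul_le_mul_of_nonneg_right ?_ (drop_nonneg _ _)
    refine (hκ r hr).trans (mul_le_mul_of_nonneg_left ?_ (hk r hr).le)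
    exact Finset.prod_le_prod (fun i _ => (pow_pos hlo _).le)
      fun i _ => pow_le_pow_left₀ hlo.le (hx i).1 _
  have h7 := hδ x hxp w hw
  have h8 : κ * (g / H) ≤ κ * D := mul_le_mul_of_nonneg_left h5 hκ0.le
  linarith

end Crest.Agent.R92
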